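import Vale.Agent.P032.H553.ClR1

/-!
# P032, X, end of state A: the fields `apex` and `nof` of `PtD`

* `Irr.pair_near553` : a three coloured point `x` on the circles of two two-pair points `W1`, `W2`
  (not antipodal), `T x = {s, p, g}`, `s, p` a pair of `W1` and `s, g` a pair of `W2`: the pair
  `{p, g}` is the palette of points near `x`.
* `DSt.apex553` : no pair of `x` is pinned (field `apex` of `PtD`).
* `StW.nof553` : no face complementary to `T x` in the closed disc of `x` (field `nof`).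
-/

open Set Filter Topology Metric

noncomputable section

namespace Vale.Agent.P032.Six

open Vale.Agent.P032.S5 Vale.Agent.P032.S5.Tab Vale.Agent.P032.Carr Vale.Agent.P032.S5.H767
  Vale.Agent.P032.H747 Vale.Agent.P032.H961

variable {U : Fin 6 → Set ℂ} {T : ℂ → Set (Fin 6)} {fg : ℂ → Set (Fin 6)} {Z : Set ℂ} {c : ℂ}
  {R δ₀ : ℝ} {x z W W1 W2 : ℂ} {s p g c1 d1 c2 d2 : Fin 6}

/-- inner product -/
def ip553 (u v : ℂ) : ℝ := u.re * v.re + u.im * v.im

theorem sq_dist553 {ξ : ℂ} (hW : dist x W = 1) (t : ℝ) :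
    dist (x + t * ξ) W ^ 2 = t ^ 2 * (ξ.re ^ 2 + ξ.im ^ 2) - 2 * t * ip553 ξ (W - x) + 1 := by
  have e1 : (x.re - W.re) ^ 2 + (x.im - W.im) ^ 2 = 1 := by
    have := Complex.sq_norm (x - W)
    rw [← dist_eq_norm, hW, Complex.normSq_apply] at this
    simp only [Complex.sub_re, Complex.sub_im] at this
    nlinarith
  rw [dist_eq_norm, Complex.sq_norm, Complex.normSq_apply]
  unfold ip553
  simp only [Complex.sub_re, Complex.sub_im, Complex.add_re, Complex.add_im, Complex.mul_re,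
    Complex.mul_im, Complex.ofReal_re, Complex.ofReal_im, zero_mul, sub_zero, add_zero]
  nlinarith

theorem inside553 {ξ : ℂ} (hW : dist x W = 1) (hip : 0 < ip553 ξ (W - x)) :
    ∀ᶠ t : ℝ in 𝓝[>] 0, dist (x + t * ξ) W < 1 := by
  have hc : Continuous fun t : ℝ => t * (ξ.re ^ 2 + ξ.im ^ 2) - 2 * ip553 ξ (W - x) := by
    fun_prop
  have h0 : ∀ᶠ t : ℝ in 𝓝 0, t * (ξ.re ^ 2 + ξ.im ^ 2) - 2 * ip553 ξ (W - x) < 0 :=
    hc.continuousAt.eventually (Iio_mem_nhds (by
      show (0 : ℝ) * (ξ.re ^ 2 + ξ.im ^ 2) - 2 * ip553 ξ (W - x) < 0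
      linarith))
  filter_upwards [mem_nhdsWithin_of_mem_nhds h0, self_mem_nhdsWithin] with t h1 h2
  have h2 : 0 < t := h2
  have h3 := sq_dist553 (ξ := ξ) hW t
  have h4 : dist (x + t * ξ) W ^ 2 < 1 := by
    rw [h3]; nlinarith
  nlinarith [dist_nonneg (x := x + t * ξ) (y := W)]

theorem outside553 {ξ : ℂ} (hW : dist x W = 1) (hip : ip553 ξ (W - x) < 0) {t : ℝ} (ht : 0 < t) :
    1 < dist (x + t * ξ) W := by
  have h3 := sq_dist553 (ξ := ξ) hW t
  have h4 : 1 < dist (x + t * ξ) W ^ 2 := by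
    rw [h3]
    have : 0 ≤ t ^ 2 * (ξ.re ^ 2 + ξ.im ^ 2) := by positivity
    nlinarith
  nlinarith [dist_nonneg (x := x + t * ξ) (y := W)]

theorem convex_half553 (n : ℂ) : Convex ℝ {w : ℂ | ip553 (w - x) n < 0} := by
  intro a ha b hb s t hs ht hst
  simp only [Set.mem_ofPred_eq, ip553, Complex.sub_re, Complex.sub_im] at ha hb ⊢
  simp only [Complex.add_re, Complex.add_im, Complex.real_smul, Complex.mul_re, Complex.mul_im,
    Complex.ofReal_re, Complex.ofReal_im, zero_mul, sub_zero, add_zero]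
  have e : t = 1 - s := by linarith
  subst e
  rcases eq_or_lt_of_le hs with h1 | h1
  · rw [← h1]; nlinarith
  · rcases eq_or_lt_of_le ht with h2 | h2
    · have : s = 1 := by linarith
      rw [this]; nlinarith
    · nlinarith [mul_neg_of_pos_of_neg h1 ha, mul_neg_of_pos_of_neg h2 hb]

/-- one side of the circle about `W` is free of `a`, the other of `b` -/
theorem side553 (h : Irr U T) {a b : Fin 6} (hS : Sd U W x a b ∨ Sd U W x b a)
    (hW : dist x W = 1) : ∃ τ : ℝ, (τ = 1 ∨ τ = -1) ∧ ∀ N ∈ 𝓝 x, ∃ K ⊆ N, IsPreconnected K ∧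
      (∀ w ∈ K, a ∉ T w) ∧
      (∀ ξ : ℂ, 0 < τ * ip553 ξ (W - x) → ∀ᶠ t : ℝ in 𝓝[>] 0, x + t * ξ ∈ K) ∧
      (∀ ξ : ℂ, τ * ip553 ξ (W - x) < 0 → ∀ᶠ t : ℝ in 𝓝[>] 0, b ∉ T (x + t * ξ)) := by
  have hcts : ∀ ξ : ℂ, ∀ N ∈ 𝓝 x, ∀ᶠ t : ℝ in 𝓝[>] 0, x + t * ξ ∈ N := by
    intro ξ N hN
    have hc : Continuous fun t : ℝ => x + t * ξ := by fun_prop
    have h1 : Tendsto (fun t : ℝ => x + t * ξ) (𝓝 0) (𝓝 x) := by
      have := hc.tendsto 0
      simpa using this
    exact mem_nhdsWithin_of_mem_nhds (h1 hN)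
  rcases hS with hS | hS
  · -- `a` inside, `b` outside
    refine ⟨-1, Or.inr rfl, fun N hN => ?_⟩
    obtain ⟨ε, hε, hball⟩ := Metric.mem_nhds_iff.1 (inter_mem hN hS)
    refine ⟨ball x ε ∩ {w | ip553 (w - x) (W - x) < 0}, fun w hw => (hball hw.1).1,
      ((convex_ball x ε).inter (convex_half553 _)).isPreconnected, fun w hw haw => ?_,
      fun ξ hξ => ?_, fun ξ hξ => ?_⟩
    · have h1 := (hball hw.1).2
      have h2 : 1 < dist w W := by
        have h3 := outside553 (x := x) (W := W) (ξ := w - x) hW hw.2 one_pos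
        simpa using h3
      exact h1.1 h2 (h.sub w haw)
    · filter_upwards [hcts ξ _ (ball_mem_nhds x hε), self_mem_nhdsWithin] with t h1 h2
      refine ⟨h1, ?_⟩
      have h2 : 0 < t := h2
      show ip553 (x + t * ξ - x) (W - x) < 0
      have e : ip553 (x + t * ξ - x) (W - x) = t * ip553 ξ (W - x) := by
        unfold ip553
        simp
        ring
      rw [e]
      nlinarith
    · filter_upwards [inside553 (ξ := ξ) hW (by linarith), hcts ξ _ (ball_mem_nhds x hε)]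
        with t h1 h2 h3
      exact (hball h2).2.2 h1 (h.sub _ h3)
  · -- `b` inside, `a` outside
    refine ⟨1, Or.inl rfl, fun N hN => ?_⟩
    obtain ⟨ε, hε, hball⟩ := Metric.mem_nhds_iff.1 (inter_mem hN hS)
    refine ⟨ball x ε ∩ ball W 1, fun w hw => (hball hw.1).1,
      ((convex_ball x ε).inter (convex_ball W 1)).isPreconnected, fun w hw haw => ?_,
      fun ξ hξ => ?_, fun ξ hξ => ?_⟩
    · exact (hball hw.1).2.2 hw.2 (h.sub w haw)
    · filter_upwards [hcts ξ _ (ball_mem_nhds x hε), inside553 (ξ := ξ) hW (by linarith)]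
        with t h1 h2
      exact ⟨h1, h2⟩
    · filter_upwards [self_mem_nhdsWithin, hcts ξ _ (ball_mem_nhds x hε)] with t h1 h2 h3
      exact (hball h2).2.1 (outside553 hW (by linarith) h1) (h.sub _ h3)

/-- on a connected set with palettes `{p}` and `{g}` only one of them occurs -/
theorem const553 (h : Irr U T) {K : Set ℂ} (hK : IsPreconnected K)
    (hp : ∀ w ∈ K, T w = {p} ∨ T w = {g}) {w w' : ℂ} (hw : w ∈ K) (hw' : w' ∈ K)
    (e : T w = {p}) : T w' = {p} := by
  have := clopen780 hK (P := fun w => T w = {p}) (fun y hy => ?_) hw hw'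
  · exact this.1 e
  · filter_upwards [h.nhd y] with q hq hqK
    rcases hp y hy with h1 | h1
    · constructor
      · intro _; exact h1
      · intro _
        rw [h1] at hq
        rcases Set.subset_singleton_iff_eq.1 hq with h2 | h2
        · obtain ⟨i, hi⟩ := h.ne q
          rw [h2] at hi
          exact absurd hi (Set.notMem_empty i)
        · exact h2
    · rw [h1] at hq
      have h2 : T q = {g} := by
        rcases Set.subset_singleton_iff_eq.1 hq with h2 | h2
        · obtain ⟨i, hi⟩ := h.ne q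
          rw [h2] at hi
          exact absurd hi (Set.notMem_empty i)
        · exact h2
      rw [h1, h2]

/-- **The third pair**: `s, p` separated by the circle about `W1`, `s, g` by the circle about `W2` -/
theorem Irr.pair_near553 (h : Irr U T) (S1 : Sd U W1 x s p ∨ Sd U W1 x p s)
    (S2 : Sd U W2 x s g ∨ Sd U W2 x g s) (h1 : dist x W1 = 1) (h2 : dist x W2 = 1)
    (hne : W1 ≠ W2) (hne2 : W1 + W2 ≠ 2 * x) (hpg : p ≠ g) (hT : T x = {s, p, g}) :
    ∃ᶠ w in 𝓝 x, T w = {p, g} := by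
  intro hcon
  obtain ⟨τ1, hτ1, K1⟩ := side553 h S1 h1
  obtain ⟨τ2, hτ2, K2⟩ := side553 h S2 h2
  have hN := inter_mem hcon (h.nhd x)
  obtain ⟨K1, hK1N, hK1c, hK1a, hK1d, hK1e⟩ := K1 _ hN
  obtain ⟨K2, hK2N, hK2c, hK2a, hK2d, hK2e⟩ := K2 _ hN
  -- the palettes off `s`
  have pal : ∀ w, T w ≠ {p, g} → T w ⊆ T x → s ∉ T w → T w = {p} ∨ T w = {g} := by
    intro w hw hwx hs
    by_cases hp : p ∈ T w
    · by_cases hg : g ∈ T w
      · exfalso
        refine hw (Subset.antisymm (fun i hi => ?_) (by rintro i (rfl | rfl) <;> assumption))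
        have := hwx hi
        rw [hT] at this
        rcases this with h3 | h3
        · exact absurd (h3 ▸ hi) hs
        · exact h3
      · left
        refine Subset.antisymm (fun i hi => ?_) (by rintro i rfl; exact hp)
        have := hwx hi
        rw [hT] at this
        rcases this with h3 | h3 | h3
        · exact absurd (h3 ▸ hi) hs
        · exact h3
        · exact absurd (h3 ▸ hi) hg
    · right
      have hsub : T w ⊆ {g} := by
        intro i hi
        have := hwx hi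
        rw [hT] at this
        rcases this with h3 | h3 | h3
        · exact absurd (h3 ▸ hi) hs
        · exact absurd (h3 ▸ hi) hp
        · exact h3
      rcases Set.subset_singleton_iff_eq.1 hsub with h3 | h3
      · obtain ⟨i, hi⟩ := h.ne w
        rw [h3] at hi
        exact absurd hi (Set.notMem_empty i)
      · exact h3
  have p1 : ∀ w ∈ K1, T w = {p} ∨ T w = {g} := fun w hw =>
    pal w (hK1N hw).1 (hK1N hw).2 (hK1a w hw)
  have p2 : ∀ w ∈ K2, T w = {g} ∨ T w = {p} := fun w hw =>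
    (pal w (hK2N hw).1 (hK2N hw).2 (hK2a w hw)).symm
  -- the directions
  have n1 : (W1 - x).re ^ 2 + (W1 - x).im ^ 2 = 1 := by
    have := Complex.sq_norm (W1 - x)
    rw [← dist_eq_norm, dist_comm, h1, Complex.normSq_apply] at this
    nlinarith
  have n2 : (W2 - x).re ^ 2 + (W2 - x).im ^ 2 = 1 := by
    have := Complex.sq_norm (W2 - x)
    rw [← dist_eq_norm, dist_comm, h2, Complex.normSq_apply] at this
    nlinarith
  obtain ⟨C, hC⟩ : ∃ C, C = ip553 (W1 - x) (W2 - x) := ⟨_, rfl⟩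
  have hC1 : C < 1 := by
    by_contra hcon2
    apply hne
    have h3 : ((W1 - x).re - (W2 - x).re) ^ 2 + ((W1 - x).im - (W2 - x).im) ^ 2 ≤ 0 := by
      rw [hC] at hcon2
      unfold ip553 at hcon2
      nlinarith
    have h4 : (W1 - x).re = (W2 - x).re := by nlinarith [sq_nonneg ((W1 - x).re - (W2 - x).re), sq_nonneg ((W1 - x).im - (W2 - x).im)]
    have h5 : (W1 - x).im = (W2 - x).im := by nlinarith [sq_nonneg ((W1 - x).re - (W2 - x).re), sq_nonneg ((W1 - x).im - (W2 - x).im)]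
    have := Complex.ext h4 h5
    linear_combination this
  have hC2 : -1 < C := by
    by_contra hcon2
    apply hne2
    have h3 : ((W1 - x).re + (W2 - x).re) ^ 2 + ((W1 - x).im + (W2 - x).im) ^ 2 ≤ 0 := by
      rw [hC] at hcon2
      unfold ip553 at hcon2
      nlinarith
    have h4 : (W1 - x).re = (-(W2 - x)).re := by
      rw [Complex.neg_re]
      nlinarith [sq_nonneg ((W1 - x).re + (W2 - x).re), sq_nonneg ((W1 - x).im + (W2 - x).im)]
    have h5 : (W1 - x).im = (-(W2 - x)).im := by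
      rw [Complex.neg_im]
      nlinarith [sq_nonneg ((W1 - x).re + (W2 - x).re), sq_nonneg ((W1 - x).im + (W2 - x).im)]
    have := Complex.ext h4 h5
    linear_combination this
  have comb : ∀ α β : ℝ, ip553 (α * (W1 - x) + β * (W2 - x)) (W1 - x) = α + β * C ∧
      ip553 (α * (W1 - x) + β * (W2 - x)) (W2 - x) = α * C + β := by
    intro α β
    rw [hC]
    unfold ip553
    simp only [Complex.add_re, Complex.add_im, Complex.mul_re, Complex.mul_im, Complex.ofReal_re,
      Complex.ofReal_im, zero_mul, sub_zero, add_zero]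
    constructor
    · linear_combination α * n1
    · linear_combination β * n2
  have sg : ∀ {τ : ℝ}, (τ = 1 ∨ τ = -1) → τ ^ 2 = 1 := by
    rintro τ (rfl | rfl) <;> norm_num
  have q1 := sg hτ1
  have q2 := sg hτ2
  have hprod : |τ1 * τ2 * C| < 1 := by
    rcases hτ1 with rfl | rfl <;> rcases hτ2 with rfl | rfl <;>
      · rw [abs_lt]; constructor <;> linarith
  have hprod := abs_lt.1 hprod
  obtain ⟨a1, a2⟩ := comb τ1 τ2
  obtain ⟨b1, b2⟩ := comb τ1 (-τ2)
  obtain ⟨e1, e2⟩ := comb (-τ1) τ2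
  have f1 : 0 < τ1 * ip553 (τ1 * (W1 - x) + τ2 * (W2 - x)) (W1 - x) := by
    rw [a1]; nlinarith [hprod.1]
  have f2 : 0 < τ2 * ip553 (τ1 * (W1 - x) + τ2 * (W2 - x)) (W2 - x) := by
    rw [a2]; nlinarith [hprod.1]
  have f3 : 0 < τ1 * ip553 (τ1 * (W1 - x) + (-τ2 : ℝ) * (W2 - x)) (W1 - x) := by
    rw [b1]; nlinarith [hprod.2]
  have f4 : τ2 * ip553 (τ1 * (W1 - x) + (-τ2 : ℝ) * (W2 - x)) (W2 - x) < 0 := by
    rw [b2]; nlinarith [hprod.2]
  have f5 : τ1 * ip553 ((-τ1 : ℝ) * (W1 - x) + τ2 * (W2 - x)) (W1 - x) < 0 := by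
    rw [e1]; nlinarith [hprod.2]
  have f6 : 0 < τ2 * ip553 ((-τ1 : ℝ) * (W1 - x) + τ2 * (W2 - x)) (W2 - x) := by
    rw [e2]; nlinarith [hprod.2]
  obtain ⟨t, g1, g2, g3, g4, g5, g6⟩ := ((hK1d _ f1).and ((hK2d _ f2).and ((hK1d _ f3).and
    ((hK2e _ f4).and ((hK1e _ f5).and (hK2d _ f6)))))).exists
  have k1 : T (x + t * (τ1 * (W1 - x) + (-τ2 : ℝ) * (W2 - x))) = {p} := by
    rcases p1 _ g3 with h3 | h3
    · exact h3
    · exact absurd (by rw [h3]; rfl) g4
  have k2 : T (x + t * ((-τ1 : ℝ) * (W1 - x) + τ2 * (W2 - x))) = {g} := by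
    rcases p2 _ g6 with h3 | h3
    · exact h3
    · exact absurd (by rw [h3]; rfl) g5
  have k3 := const553 h hK1c p1 g3 g1 k1
  have k4 := const553 h hK2c p2 g6 g2 k2
  rw [k3] at k4
  exact hpg (Set.singleton_injective k4)

/-- a pair which is the palette of points near `x` is not pinned at `x` -/
theorem DSt.not_pinned553 (D : DSt U T Z fg c R δ₀) (hA : OffA T fg x) (h3 : (T x).ncard = 3)
    {i j : Fin 6} (hi : i ∈ T x) (hj : j ∈ T x) (hfr : ∃ᶠ w in 𝓝 x, T w = {i, j})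
    (hzx : dist z x = 1) (h4 : 4 ≤ (T z).ncard) : T z \ fg z ≠ {i, j} := by
  intro hC
  obtain ⟨w, hw, h1⟩ := (hfr.and_eventually (D.pin_nhd hA h3.le hi hj hzx h4 hC)).exists
  have h2 := (h1 (by rw [hw]; simp) (by rw [hw]; simp)).2
  rw [← h2, hw] at h3
  have := (Set.ncard_insert_le i ({j} : Set (Fin 6))).trans (by simp : _ ≤ 2)
  omega

/-- **Field `apex`** -/
theorem DSt.apex553 (D : DSt U T Z fg c R δ₀) (hA : OffA T fg x)
    (D1 : DPt T W1 s p c1 d1) (D2 : DPt T W2 s g c2 d2)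
    (k1 : x ∈ closure (Ex T W1 {s, p})) (k2 : x ∈ closure (Ex T W2 {s, g}))
    (hne : W1 ≠ W2) (hne2 : W1 + W2 ≠ 2 * x) (hpg : p ≠ g) (hT : T x = {s, p, g}) :
    ∀ z, dist z x = 1 → 4 ≤ (T z).ncard → ¬ T z \ fg z ⊆ T x := by
  intro z hzx h4 hsub
  have h := D.df.irr
  have hsp : s ≠ p := D1.ab
  have hsg : s ≠ g := D2.ab
  have h3 : (T x).ncard = 3 := Set.ncard_eq_three.2 ⟨s, p, g, hsp, hsg, hpg, hT⟩
  have hs : s ∈ T x := by rw [hT]; simp
  have hp : p ∈ T x := by rw [hT]; simp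
  have hg : g ∈ T x := by rw [hT]; simp
  have hx1 : dist x W1 = 1 := dist_of_closure k1
  have hx2 : dist x W2 = 1 := dist_of_closure k2
  have f1 : ∃ᶠ w in 𝓝 x, T w = {s, p} :=
    (mem_closure_iff_frequently.1 k1).mono fun w hw => ex_self hw
  have f2 : ∃ᶠ w in 𝓝 x, T w = {s, g} :=
    (mem_closure_iff_frequently.1 k2).mono fun w hw => ex_self hw
  have f3 := h.pair_near553 (h.sides D1 hx1) (h.sides D2 hx2) hx1 hx2 hne hne2 hpg hT
  have n1 := D.not_pinned553 hA h3 hs hp f1 hzx h4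
  have n2 := D.not_pinned553 hA h3 hs hg f2 hzx h4
  have n3 := D.not_pinned553 hA h3 hp hg f3 hzx h4
  have hc : (T z \ fg z).ncard = 2 := D.card_ap h4
  obtain ⟨i, j, hij, hC⟩ := Set.ncard_eq_two.1 hc
  rw [hT] at hsub
  have hi : i ∈ ({s, p, g} : Set (Fin 6)) := hsub (by rw [hC]; simp)
  have hj : j ∈ ({s, p, g} : Set (Fin 6)) := hsub (by rw [hC]; simp)
  rw [hC] at n1 n2 n3
  rcases hi with rfl | rfl | rfl <;> rcases hj with rfl | rfl | rfl
  · exact hij rfl
  · exact n1 rfl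
  · exact n2 rfl
  · exact n1 (Set.pair_comm _ _)
  · exact hij rfl
  · exact n3 rfl
  · exact n2 (Set.pair_comm _ _)
  · exact n3 (Set.pair_comm _ _)
  · exact hij rfl

/-- **Field `nof`** -/
theorem StW.nof553 (W : StW T fg) (D : DSt U T Z fg c R δ₀) (hN : NoComp T)
    (h3 : (T x).ncard = 3) : ∀ u ∈ closedBall x 1, ¬ FcD T fg u (T x)ᶜ := by
  intro u hu hF
  have h1 : (T x)ᶜ.ncard = 3 := by
    have h2 := Set.ncard_add_ncard_compl (T x)
    have h4 : Nat.card (Fin 6) = 6 := by simp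
    omega
  have h2 := W.far D hN (DSt.hup W D.df) (u := x) (u' := u) (s := T x)
    ⟨Subset.rfl, fun h4 => absurd h4 (by omega)⟩ hF h3 h1
  have h4 := mem_closedBall.1 hu
  rw [dist_comm] at h4
  linarith

/-- **All fields of `PtD` but the ring** -/
theorem DSt.ptD553 (D : DSt U T Z fg c R δ₀) (W : StW T fg) (hN : NoComp T)
    (hx : dist x c ≤ R - 1) (hA : OffA T fg x) (D1 : DPt T W1 s p c1 d1)
    (D2 : DPt T W2 s g c2 d2) (k1 : x ∈ closure (Ex T W1 {s, p}))
    (k2 : x ∈ closure (Ex T W2 {s, g})) (hne : W1 ≠ W2) (hne2 : W1 + W2 ≠ 2 * x) (hpg : p ≠ g)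
    (hT : T x = {s, p, g}) (hr : RingOdd T Z fg x) : PtD T Z fg c R x where
  dx := hx
  three := Set.ncard_eq_three.2 ⟨s, p, g, D1.ab, D2.ab, hpg, hT⟩
  apex := D.apex553 hA D1 D2 k1 k2 hne hne2 hpg hT
  ring := hr
  nof := W.nof553 D hN (Set.ncard_eq_three.2 ⟨s, p, g, D1.ab, D2.ab, hpg, hT⟩)

end Vale.Agent.P032.Six
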