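import Vale.Agent.P032.H553.InnV
import Vale.Agent.P032.H553.PtV
import Vale.Agent.P032.H180.Viol
import Vale.Agent.P032.H383.RingW
import Vale.Agent.P032.H383.Contact

/-!
# P032, TipI: the record of the letters on the circle of a three coloured point

`BW553` : a three coloured point of the state frame in the world of STAY chains.  `fullD` : the
neighbours of a full two-pair point; `nbrH`, `cc` : of a full harmless point; `hexW`, `incF`.
-/

open Set Filter Topology Metric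

noncomputable section

namespace Vale.Agent.P032.Six

open Vale.Agent.P032.S5 Vale.Agent.P032.S5.Tab Vale.Agent.P032.Carr Vale.Agent.P032.H538
  Vale.Agent.P032.H961
open Vale.Agent.P032.H180 (HexZ Qt Qt_of_ne Qt_of_eq)
open Vale.Agent.P032.S5.H180 (Qx rx Bs Qx_univ usc_pt dist_pt_succ)

variable {U : Fin 6 → Set ℂ} {T : ℂ → Set (Fin 6)} {f : ℂ → Set (Fin 6)} {Z : Set ℂ} {c : ℂ}
  {R δ₀ : ℝ} {x y z : ℂ} {A A' : Set (Fin 6)} {a b p q : Fin 6} {col : Fin 3 → Fin 6} {t s : ℝ}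

/-- a three coloured point of the state frame in the world of STAY chains -/
structure BW553 (U : Fin 6 → Set ℂ) (T : ℂ → Set (Fin 6)) (Z : Set ℂ) (f : ℂ → Set (Fin 6))
    (c : ℂ) (R δ₀ : ℝ) (x : ℂ) : Prop where
  D : DSt U T Z f c R δ₀
  W : StW2 T f
  hN : NoComp T
  hx : dist x c ≤ R - 1
  three : (T x).ncard = 3
  ap : ∀ z, dist z x = 1 → 4 ≤ (T z).ncard → ¬ T z \ f z ⊆ T x

namespace BW553

variable (B : BW553 U T Z f c R δ₀ x)
include B

theorem fz (hy : dist y x = 1) (hs : (T x)ᶜ ⊆ T y) : 4 ≤ (T y).ncard ∧ f y ⊆ (T x)ᶜ := by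
  have h1 := B.W.toStW.nof553 B.D B.hN B.three y (mem_closedBall.2 hy.le)
  by_contra hcon
  exact h1 ⟨hs, fun h4 hf => hcon ⟨h4, hf⟩⟩

theorem rc : H57.RC T Z f δ₀ x (T x) := B.D.rc383 B.hx B.three B.ap fun _ hy hs => B.fz hy hs

theorem full : ∀ y, dist y x = 1 → ¬ T y ⊆ T x := fun _ hy => B.D.df.irr.not_sub hy B.three.le

theorem c3 : ((T x)ᶜ).ncard = 3 := by
  rw [Set.ncard_compl, B.three]; simp

theorem bs : Bs U T x (T x) := ⟨B.D.df.irr, B.three, Subset.rfl, B.full, Or.inl rfl⟩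

theorem kind (h4 : 4 ≤ (T z).ncard) : (Six.Harm T z (f z)) ∨ ∃ a b c d, DPt T z a b c d := by
  rcases B.D.df.harm_or h4 with ⟨A, hA⟩ | h
  · left
    rw [B.D.ch.harm z A hA]; exact hA
  · exact Or.inr h

/-- **The neighbours of a full two-pair point** -/
theorem fullD (hD : DPt T z a b p q) (hz : dist z x = 1) (hs : (T x)ᶜ ⊆ T z) (hy : dist y x = 1)
    (hyz : dist y z = 1) : ¬ (T x)ᶜ ⊆ T y ∧
      ((T y \ T x ⊆ f z ∧ f z ⊆ T y) ∨ SwV180 T f x y z) := by
  have h := B.D.df.irr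
  obtain ⟨a, b, m, n, e, f', V1, V2, H⟩ := B.W.w.qf hD
  have key : ∀ {a b m n e f' : Fin 6} {V1 V2 : ℂ}, QI T NoI z a b m n e f' V1 V2 → y = V1 →
      ¬ (T x)ᶜ ⊆ T y ∧ ((T y \ T x ⊆ f z ∧ f z ⊆ T y) ∨ SwV180 T f x y z) := by
    rintro a b m n e f' V1 V2 H rfl
    have ha : a ∉ T x := fun ha =>
      B.W.inner_out h H (by rw [dist_comm]; exact hz) (by rw [dist_comm]; exact hy) ha
    have hfz := (B.fz hz hs).2
    rw [B.W.gauge H] at hfz
    have hm : m ∉ T x := hfz (by simp)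
    have hn : n ∉ T x := hfz (by simp)
    obtain ⟨g, e1, f1, W1, H1, hgn⟩ := B.W.stay2 H
    have nd := H.nd
    have nd1 := H1.nd
    simp only [List.nodup_cons, List.mem_cons, List.not_mem_nil, or_false, not_or,
      List.nodup_nil, and_true, not_false_eq_true] at nd nd1
    obtain ⟨⟨hab, ham, han, hae, haf⟩, ⟨hbm, hbn, hbe, hbf⟩, ⟨hmn, hme, hmf⟩, ⟨hne, hnf⟩, hef⟩ := nd
    have hcomp : ({a, m, n} : Set (Fin 6)) = (T x)ᶜ := by
      refine Set.eq_of_subset_of_ncard_le ?_ ?_ (Set.toFinite _)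
      · rintro i (rfl | rfl | rfl) <;> assumption
      · rw [B.c3, Set.ncard_eq_three.2 ⟨a, m, n, ham, han, hmn, rfl⟩]
    have hin : ∀ i, i ≠ a → i ≠ m → i ≠ n → i ∈ T x := by
      intro i h1 h2 h3
      by_contra hi
      have : i ∈ (T x)ᶜ := hi
      rw [← hcomp] at this
      rcases this with h4 | h4 | h4
      · exact h1 h4
      · exact h2 h4
      · exact h3 h4
    have hb : b ∈ T x := hin b (Ne.symm hab) hbm hbn
    have hg : g ∈ T x := hin g (Ne.symm nd1.1.2.1) (Ne.symm nd1.2.1.1) hgn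
    refine ⟨fun hf => ?_, Or.inr ⟨g, b, a, m, H1.dpt.swap, B.W.gauge H1, hg, hb, ha, hm, ?_, ?_,
      H1.toQI0.mem2 h⟩⟩
    · have h1 : n ∈ T y := hf hn
      rw [H1.pal] at h1
      rcases h1 with h1 | h1 | h1 | h1
      · exact han h1.symm
      · exact hmn h1.symm
      · exact hgn h1.symm
      · exact hbn h1.symm
    · rw [H.pal]; simp
    · rw [H.pal]; simp
  rcases le_or_gt (T y).ncard 3 with h3 | h4
  swap
  · rcases H.ord y hyz h4 with h1 | h1 | h1
    · exact key H h1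
    · exact key H.mirror h1
    · exact h1.elim
  have hnf : ¬ (T x)ᶜ ⊆ T y := fun hf => by
    have := (B.fz hy hf).1
    omega
  refine ⟨hnf, Or.inl ?_⟩
  have hfz := (B.fz hz hs).2
  rw [B.W.gauge H] at hfz ⊢
  have hm : m ∉ T x := hfz (by simp)
  have hn : n ∉ T x := hfz (by simp)
  have nd := H.nd
  simp only [List.nodup_cons, List.mem_cons, List.not_mem_nil, or_false, not_or,
    List.nodup_nil, and_true, not_false_eq_true] at nd
  obtain ⟨⟨hab, ham, han, hae, haf⟩, ⟨hbm, hbn, hbe, hbf⟩, ⟨hmn, hme, hmf⟩, ⟨hne, hnf'⟩, hef⟩ := nd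
  have hall : ∀ i : Fin 6, i = a ∨ i = b ∨ i = m ∨ i = n ∨ i = e ∨ i = f' :=
    all_names353 H.nd
  have heT : e ∉ T z := by
    rw [H.pal]; simp only [mem_insert_iff, mem_singleton_iff, not_or]
    exact ⟨(Ne.symm hae), (Ne.symm hbe), (Ne.symm hme), (Ne.symm hne)⟩
  have hfT : f' ∉ T z := by
    rw [H.pal]; simp only [mem_insert_iff, mem_singleton_iff, not_or]
    exact ⟨(Ne.symm haf), (Ne.symm hbf), (Ne.symm hmf), (Ne.symm hnf')⟩
  have hex : e ∈ T x := by
    by_contra h1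
    exact heT (hs h1)
  have hfx : f' ∈ T x := by
    by_contra h1
    exact hfT (hs h1)
  have hxz : x ≠ z := by
    rintro rfl
    rw [dist_self] at hz; exact zero_ne_one hz
  have hne2 : x + z ≠ 2 * y := by
    intro h1
    have h2 : dist z x = 2 := by
      have h3 : z - x = 2 * (y - x) := by linear_combination h1
      rw [dist_eq_norm, h3, norm_mul, ← dist_eq_norm, hy]; norm_num
    rw [hz] at h2; norm_num at h2
  -- the contact
  have fin : ∀ r c' : Fin 6, DPt T z m n r c' → [m, n, r, c', e, f'].Nodup → r ∈ T x →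
      T y \ T x ⊆ {m, n} ∧ ({m, n} : Set (Fin 6)) ⊆ T y := by
    intro r c' hD' nd' hr
    have nd'' := nd'
    simp only [List.nodup_cons, List.mem_cons, List.not_mem_nil, or_false, not_or,
      List.nodup_nil, and_true, not_false_eq_true] at nd''
    have hTx : T x = {e, f', r} := by
      symm
      refine Set.eq_of_subset_of_ncard_le ?_ ?_ (Set.toFinite _)
      · rintro i (rfl | rfl | rfl) <;> assumption
      · rw [B.three, Set.ncard_eq_three.2 ⟨e, f', r, hef, Ne.symm nd''.2.2.1.2.1,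
          Ne.symm nd''.2.2.1.2.2, rfl⟩]
    have hcl := H383.contact h hD' nd' hTx hyz hy hxz hne2 (Or.inl h3)
    have hsub : ({m, n} : Set (Fin 6)) ⊆ T y := by
      intro i hi
      have h1 : closure {q | dist q z = 1 ∧ T q = {m, n}} ⊆ {q | i ∈ T q} :=
        closure_minimal (fun q hq => by
          change i ∈ T q
          rw [hq.2]; exact hi) (h.closed i)
      exact h1 hcl
    refine ⟨?_, hsub⟩
    rintro i ⟨hi, hix⟩
    rcases all_names353 nd' i with rfl | rfl | rfl | rfl | rfl | rfl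
    · exact Or.inl rfl
    · exact Or.inr rfl
    · exact absurd hr hix
    · exfalso
      refine hnf fun l hl => ?_
      rcases all_names353 nd' l with rfl | rfl | rfl | rfl | rfl | rfl
      · exact hsub (Or.inl rfl)
      · exact hsub (Or.inr rfl)
      · exact absurd hr hl
      · exact hi
      · exact absurd hex hl
      · exact absurd hfx hl
    · exact absurd hex hix
    · exact absurd hfx hix
  by_cases ha : a ∈ T x
  · exact fin a b H.dpt.swap (by
      simp only [List.nodup_cons, List.mem_cons, List.not_mem_nil, or_false, not_or,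
        List.nodup_nil, and_true, not_false_eq_true]
      exact ⟨⟨hmn, (Ne.symm ham), (Ne.symm hbm), hme, hmf⟩, ⟨(Ne.symm han), (Ne.symm hbn), hne, hnf'⟩,
        ⟨hab, hae, haf⟩, ⟨hbe, hbf⟩, hef⟩) ha
  · have hb : b ∈ T x := by
      by_contra hb
      have h1 : ({a, b, m, n} : Set (Fin 6)) ⊆ (T x)ᶜ := by
        rintro i (rfl | rfl | rfl | rfl) <;> assumption
      have h2 := Set.ncard_le_ncard h1 (Set.toFinite _)
      rw [B.c3, ← H.pal, H.ord0] at h2
      omega
    exact fin b a H.dpt.swap.swap34 (by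
      simp only [List.nodup_cons, List.mem_cons, List.not_mem_nil, or_false, not_or,
        List.nodup_nil, and_true, not_false_eq_true]
      exact ⟨⟨hmn, (Ne.symm hbm), (Ne.symm ham), hme, hmf⟩, ⟨(Ne.symm hbn), (Ne.symm han), hne, hnf'⟩,
        ⟨(Ne.symm hab), hbe, hbf⟩, ⟨hae, haf⟩, hef⟩) hb

/-- neighbours of a full harmless point -/
theorem nbrH (hz : dist z x = 1) (hs : (T x)ᶜ ⊆ T z) (hH : Six.Harm T z (f z)) (hy : dist y x = 1)
    (hyz : dist y z = 1) (hys : ¬ (T x)ᶜ ⊆ T y) : T y \ T x ⊆ f z ∧ f z ⊆ T y := by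
  have h := B.D.df.irr
  rcases le_or_gt (T y).ncard 3 with h3 | h4
  · exact H57.nbrZ h B.three Subset.rfl B.full hy hz hyz h3 hH.h1 hs (B.fz hz hs).2 hH.cardA hys
  rcases B.kind h4 with hA | ⟨a, b, c', d, hD⟩
  · refine B.bs.nbrZZ hz hy hyz hH hA (B.D.df.ev_harm180 hA) hs (B.fz hz hs).2 hys
      (DSt.hup B.W.toStW B.D.df y z (f z) (f y) hA hH hyz) fun D hD => ?_
    have := hD.card
    rw [B.three] at this
    norm_num at this
  · exact (B.W.toStW.sep hH hyz hD).elim

/-- two adjacent full points -/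
theorem cc (hz : dist z x = 1) (hs : (T x)ᶜ ⊆ T z) (hy : dist y x = 1)
    (hyz : dist y z = 1) (hys : (T x)ᶜ ⊆ T y) :
    Six.Harm T z (f z) ∧ Six.Harm T y (f y) ∧ f z ≠ f y := by
  rcases B.kind (B.fz hz hs).1 with hA | ⟨a, b, c', d, hD⟩
  · rcases B.kind (B.fz hy hys).1 with hA' | ⟨a, b, c', d, hD⟩
    · exact ⟨hA, hA', B.bs.ccZZ hz hy hyz hA hA' hs hys (B.fz hy hys).2
        (DSt.hup B.W.toStW B.D.df z y (f y) (f z) hA hA' (by rw [dist_comm]; exact hyz))
        (B.fz hz hs).2⟩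
    · exact ((B.fullD hD hy hys hz (by rw [dist_comm]; exact hyz)).1 hs).elim
  · exact ((B.fullD hD hz hs hy hyz).1 hys).elim

/-- the apex is the third colour -/
theorem apexL (hz : dist z x = 1) (hs : (T x)ᶜ ⊆ T z) :
    hp T f (T x) z ∈ T z ∧ hp T f (T x) z ∉ f z ∧ hp T f (T x) z ∉ T x ∧
      ∀ i, i ∉ T x → i = hp T f (T x) z ∨ i ∈ f z := by
  have hzZ : z ∈ Z := B.D.memZ B.hx hz.le (B.fz hz hs).1
  obtain ⟨h1, h2⟩ := B.D.hm.apex hzZ (T x)
  have h3 : hp T f (T x) z ∉ T x := pick_avoid (B.rc.unp z hzZ hz)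
  refine ⟨h1, h2, h3, fun i hi => ?_⟩
  by_contra hcon
  push Not at hcon
  have h4 : insert i (insert (hp T f (T x) z) (f z)) ⊆ (T x)ᶜ :=
    Set.insert_subset hi (Set.insert_subset h3 (B.fz hz hs).2)
  have h5 := Set.ncard_le_ncard h4 (Set.toFinite _)
  rw [B.c3, Set.ncard_insert_of_notMem, Set.ncard_insert_of_notMem h2, B.D.hm.two z hzZ] at h5
  · omega
  · rintro (h6 | h6)
    · exact hcon.1 h6
    · exact hcon.2 h6

theorem neQ (hcol : ∀ i, i ∉ T x ↔ ∃ l, i = col l) (t : ℝ) : (Qx T x col t).Nonempty := by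
  obtain ⟨i, hi, hiS⟩ := Set.not_subset.1 (B.full _ (Vale.Agent.P032.H180.dist_pt x t))
  obtain ⟨l, rfl⟩ := (hcol i).1 hiS
  exact ⟨l, hi⟩

theorem rxs (hcol : ∀ i, i ∉ T x ↔ ∃ l, i = col l) (ht : Qx T x col t = univ) :
    hp T f (T x) (Vale.Agent.P032.H180.pt x t) = col (rx T f (T x) x col t) :=
  (rx_spec383 B.rc hcol ((Qx_univ hcol).1 ht)).symm

/-- near a full time -/
theorem lay (hcol : ∀ i, i ∉ T x ↔ ∃ l, i = col l)
    (hinj : Function.Injective col) {t : ℝ} (ht : Qx T x col t = univ) :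
    ∀ᶠ s in 𝓝 t, (Qx T x col s = univ ∧ rx T f (T x) x col s = rx T f (T x) x col t) ∨
      (Qx T x col s ≠ univ ∧ ∀ i ∈ Qx T x col s, ∀ j ∈ Qx T x col s,
        i = rx T f (T x) x col t ∨ j = rx T f (T x) x col t ∨ i = j) := by
  have hS := (Qx_univ hcol).1 ht
  have hzx := Vale.Agent.P032.H180.dist_pt x t
  have hz : Vale.Agent.P032.H180.pt x t ∈ Z := B.D.memZ B.hx hzx.le (B.fz hzx hS).1
  have h1 : Tendsto (Vale.Agent.P032.H180.pt x) (𝓝 t) (𝓝 (Vale.Agent.P032.H180.pt x t)) :=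
    (Vale.Agent.P032.H180.continuous_pt x).continuousAt
  filter_upwards [h1.eventually (closedBall_mem_nhds _ B.D.hm.pos)] with s hs
  have hs' := mem_closedBall.1 hs
  by_cases hsZ : Vale.Agent.P032.H180.pt x s ∈ Z
  · left
    obtain ⟨e1, e2⟩ := B.D.hm.const _ hz _ hsZ hs'
    have hsu : Qx T x col s = univ := by
      rw [Qx_univ hcol, e1]
      exact hS
    refine ⟨hsu, hinj ?_⟩
    rw [← B.rxs hcol hsu, ← B.rxs hcol ht]
    unfold hp
    rw [e1, e2]
  · right
    have hns : ¬ (T x)ᶜ ⊆ T (Vale.Agent.P032.H180.pt x s) := fun h2 =>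
      hsZ (B.D.memZ B.hx (Vale.Agent.P032.H180.dist_pt x s).le
        (B.fz (Vale.Agent.P032.H180.dist_pt x s) h2).1)
    refine ⟨fun h2 => hns ((Qx_univ hcol).1 h2), fun i hi j hj => ?_⟩
    by_contra hcon
    push Not at hcon
    obtain ⟨hir, hjr, hij⟩ := hcon
    obtain ⟨-, -, -, a4⟩ := B.apexL hzx hS
    have hap := B.rxs hcol ht
    have key : ∀ m : Fin 3, m ≠ rx T f (T x) x col t →
        col m ∈ f (Vale.Agent.P032.H180.pt x t) := by
      intro m hm
      rcases a4 (col m) ((hcol _).2 ⟨m, rfl⟩) with h3 | h3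
      · rw [hap] at h3
        exact absurd (hinj h3) hm
      · exact h3
    refine B.D.hm.forb _ hz _ hs' hsZ ?_
    have h4 : f (Vale.Agent.P032.H180.pt x t) = {col i, col j} := by
      symm
      apply Set.eq_of_subset_of_ncard_le
      · rintro m (rfl | rfl)
        · exact key i hir
        · exact key j hjr
      · rw [B.D.hm.two _ hz, Set.ncard_pair fun h => hij (hinj h)]
      · exact Set.toFinite _
    rw [h4]
    rintro m (rfl | rfl)
    · exact hi
    · exact hj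

theorem hexW (hcol : ∀ i, i ∉ T x ↔ ∃ l, i = col l) (hinj : Function.Injective col) :
    HexW (Qx T x col) (rx T f (T x) x col) where
  per t := by unfold Qx; rw [Vale.Agent.P032.H180.pt_six]
  rper t := by unfold rx; rw [Vale.Agent.P032.H180.pt_six]
  ne := B.neQ hcol
  usc := usc_pt B.D.hm.usc x col
  lay t ht := B.lay hcol hinj ht

/-- neighbours of a full time -/
theorem nbrQ (hcol : ∀ i, i ∉ T x ↔ ∃ l, i = col l)
    (hd : dist (Vale.Agent.P032.H180.pt x s) (Vale.Agent.P032.H180.pt x t) = 1)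
    (ht : Qx T x col t = univ) (hs : Qx T x col s ≠ univ) :
    rx T f (T x) x col t ∉ Qx T x col s ∨
      SwV180 T f x (Vale.Agent.P032.H180.pt x s) (Vale.Agent.P032.H180.pt x t) := by
  have hS := (Qx_univ hcol).1 ht
  have dt := Vale.Agent.P032.H180.dist_pt x t
  have ds := Vale.Agent.P032.H180.dist_pt x s
  have h2 : ¬ (T x)ᶜ ⊆ T (Vale.Agent.P032.H180.pt x s) := fun h3 => hs ((Qx_univ hcol).2 h3)
  have fin : T (Vale.Agent.P032.H180.pt x s) \ T x ⊆ f (Vale.Agent.P032.H180.pt x t) →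
      rx T f (T x) x col t ∉ Qx T x col s := by
    intro h4 h1
    have h5 := B.rxs hcol ht
    have h6 := B.apexL dt hS
    refine h6.2.1 (h4 ⟨?_, h6.2.2.1⟩)
    rw [h5]
    exact h1
  rcases B.kind (B.fz dt hS).1 with hA | ⟨a, b, c', d, hD⟩
  · exact Or.inl (fin (B.nbrH dt hS hA ds hd h2).1)
  · rcases (B.fullD hD dt hS ds hd).2 with h3 | h3
    · exact Or.inl (fin h3.1)
    · exact Or.inr h3

/-- **The rule at the full times** -/
theorem incF (hcol : ∀ i, i ∉ T x ↔ ∃ l, i = col l)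
    (hd : dist (Vale.Agent.P032.H180.pt x t) (Vale.Agent.P032.H180.pt x s) = 1)
    (hu : Qx T x col t = univ ∨ Qx T x col s = univ)
    (hsub : Qt (Qx T x col) (rx T f (T x) x col) t ⊆ Qt (Qx T x col) (rx T f (T x) x col) s) :
    SwV180 T f x (Vale.Agent.P032.H180.pt x t) (Vale.Agent.P032.H180.pt x s) ∨
      SwV180 T f x (Vale.Agent.P032.H180.pt x s) (Vale.Agent.P032.H180.pt x t) := by
  have hd' : dist (Vale.Agent.P032.H180.pt x s) (Vale.Agent.P032.H180.pt x t) = 1 := by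
    rw [dist_comm]; exact hd
  have d1 := Vale.Agent.P032.H180.dist_pt x t
  have d2 := Vale.Agent.P032.H180.dist_pt x s
  by_cases ht : Qx T x col t = univ
  · rw [Qt_of_eq ht] at hsub
    have h1 : rx T f (T x) x col t ∈ Qt (Qx T x col) (rx T f (T x) x col) s := hsub rfl
    by_cases hs : Qx T x col s = univ
    · -- both full
      exfalso
      have h2 := h1.2 hs
      have hS1 := (Qx_univ hcol).1 ht
      have hS2 := (Qx_univ hcol).1 hs
      obtain ⟨hA, hA', h3⟩ := B.cc d1 hS1 d2 hd' hS2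
      have h4 : hp T f (T x) (Vale.Agent.P032.H180.pt x t) =
          hp T f (T x) (Vale.Agent.P032.H180.pt x s) := by
        rw [B.rxs hcol ht, B.rxs hcol hs, h2]
      apply h3
      obtain ⟨-, b2, b3, b4⟩ := B.apexL d1 hS1
      obtain ⟨-, c2, c3, c4⟩ := B.apexL d2 hS2
      apply Set.eq_of_subset_of_ncard_le
      · intro i hi
        rcases c4 i ((B.fz d1 hS1).2 hi) with h5 | h5
        · rw [← h4] at h5
          exact absurd (h5 ▸ hi) b2
        · exact h5
      · rw [hA.cardA, hA'.cardA]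
      · exact Set.toFinite _
    · rcases B.nbrQ hcol hd' ht hs with h2 | h2
      · exact absurd h1.1 h2
      · exact Or.inr h2
  · have hs : Qx T x col s = univ := hu.resolve_left ht
    rw [Qt_of_ne ht, Qt_of_eq hs] at hsub
    obtain ⟨i, hi, hiS⟩ := Set.not_subset.1 (B.full _ d1)
    obtain ⟨l, rfl⟩ := (hcol i).1 hiS
    have h1 : l = rx T f (T x) x col s := hsub hi
    rcases B.nbrQ hcol hd hs ht with h2 | h2
    · exact absurd (h1 ▸ hi) h2
    · exact Or.inl h2

end BW553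

end Vale.Agent.P032.Six
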