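import Vale.Agent.P032.H553.RPN

/-!
# P032, X4c: one projective plane for a whole all-STAY chain

Roles `I, O, p, q, e, f = 0, …, 5`; the names of the vertices of an all-STAY K chain satisfy
`name (j + 1) r = name j (![0, 2, 5, 1, 3, 4] r)`.  `chain_RPN` : there is one plane `N` whose
values in the roles of every vertex are `tabA` (the state of type A).
-/

namespace Vale.Agent.P032.Six

open Finset Vale.Agent.P032.S5.Tab

/-- the faces of the plane in the roles of a vertex -/
def facA : Finset (Finset (Fin 6)) := {{0,1,2},{0,2,5},{0,5,4},{0,4,3},{0,3,1},{2,3,4},{2,3,5},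
  {1,3,5},{1,4,5},{1,2,4}}

/-- the plane in the roles of a vertex -/
def tabA (t x y : Fin 6) : ZMod 2 := if ({t, x, y} : Finset (Fin 6)) ∈ facA then 1 else 0

private lemma tabA_nx : ∀ t x y : Fin 6, tabA ((![0, 2, 5, 1, 3, 4] : Fin 6 → Fin 6) t)
    ((![0, 2, 5, 1, 3, 4] : Fin 6 → Fin 6) x) ((![0, 2, 5, 1, 3, 4] : Fin 6 → Fin 6) y) =
      tabA t x y := by
  decide +kernel

/-- the plane with given names -/
theorem exists_RPN_name {g : Fin 6 → Fin 6} (hg : Function.Injective g) :
    ∃ N : Ch, RPN N ∧ ∀ t x y, N {g t, g x, g y} = tabA t x y := by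
  have hb : Function.Bijective g := Finite.injective_iff_bijective.1 hg
  let σ : Fin 6 ≃ Fin 6 := Equiv.ofBijective g hb
  have hs : ∀ r, σ.symm (g r) = r := fun r => σ.symm_apply_eq.2 rfl
  -- the standard plane in the roles
  let τ : Fin 6 → Fin 6 := ![0, 1, 2, 5, 4, 3]
  have hτ : Function.Injective τ := by decide
  refine ⟨_, (rpn0.image hτ).image σ.symm.injective, fun t x y => ?_⟩
  simp only [image_insert, image_singleton, hs]
  revert t x y
  decide +kernel

/-- **one plane for the chain** -/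
theorem chain_RPN {name : ℤ → Fin 6 → Fin 6} (inj : Function.Injective (name 0))
    (nm : ∀ j r, name (j + 1) r = name j ((![0, 2, 5, 1, 3, 4] : Fin 6 → Fin 6) r)) :
    ∃ N : Ch, RPN N ∧ ∀ j t x y, N {name j t, name j x, name j y} = tabA t x y := by
  obtain ⟨N, hN, h0⟩ := exists_RPN_name inj
  have hinv : ∀ r : Fin 6, ∃ s : Fin 6, (![0, 2, 5, 1, 3, 4] : Fin 6 → Fin 6) s = r := by decide
  refine ⟨N, hN, fun j => ?_⟩
  induction j using Int.induction_on with
  | zero => exact h0
  | succ i ih =>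
    intro t x y
    rw [nm, nm, nm, ih, tabA_nx]
  | pred i ih =>
    intro t x y
    obtain ⟨t', rfl⟩ := hinv t
    obtain ⟨x', rfl⟩ := hinv x
    obtain ⟨y', rfl⟩ := hinv y
    rw [← nm, ← nm, ← nm, sub_add_cancel, ih, tabA_nx]

end Vale.Agent.P032.Six
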