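import Vale.Agent.P032.H553.ClHyp
import Vale.Agent.P032.H961.World
import Vale.Agent.P032.H383.Far3
import Vale.Agent.P032.S5.H205.Contact
import Vale.Agent.P032.H353.Zero
import Vale.Agent.P032.H747.StarQ

/-!
# P032, X4c: the fields of `PolA` over the frame `DSt`, part 2: complementary faces

World `StW T f` : every two-pair point is a quasi-full vertex, all links are STAY links, no invisible
points, `f` takes the pair which is not the connecting pair.

* `StW.fc_fc`, `StW.fc_two`, `StW.two_two` : complementary faces are at distance at least two;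
* `StW.far` : the three cases together, for the faces `FcD`;
* `DSt.r1_three` : the complement rule for the states at the points with at most three colours outside
  the connecting arcs;
* `DSt.r1_harm` : at a harmless point, one colour in the pair and one outside;
* `DSt.rat553` : the fields `agr` and `r1` of `PolA` together.
-/

open Set Filter Topology Metric

noncomputable section

namespace Vale.Agent.P032.Six

open Vale.Agent.P032.S5 Vale.Agent.P032.S5.Tab Vale.Agent.P032.Carr Vale.Agent.P032.S5.H767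
  Vale.Agent.P032.H747 Vale.Agent.P032.H961

variable {U : Fin 6 → Set ℂ} {T : ℂ → Set (Fin 6)} {fg : ℂ → Set (Fin 6)} {Z : Set ℂ} {c : ℂ}
  {R δ₀ : ℝ} {x z u u' V V1 V2 W1 W2 : ℂ} {i j k a b m n e f g e' f' : Fin 6} {s : Set (Fin 6)}

/-- no invisible points -/
def NoI : ℂ → ℂ → Prop := fun _ _ => False

/-- the world of STAY chains, `fg` takes the pair which is not the connecting pair -/
structure StW (T : ℂ → Set (Fin 6)) (fg : ℂ → Set (Fin 6)) : Prop where
  w : QIW T NoI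
  gauge : ∀ {V V1 V2 : ℂ} {a b m n e f : Fin 6}, QI T NoI V a b m n e f V1 V2 → fg V = {m, n}
  stay : ∀ {V V1 V2 : ℂ} {a b m n e f : Fin 6}, QI T NoI V a b m n e f V1 V2 →
    ∃ (g e' f' : Fin 6) (W : ℂ), QI T NoI V1 a m g b e' f' W V

theorem nct_noI {P : Set (Fin 6)} : NCt T NoI V u P := fun _ h => h.elim

/-! ### faces of points which are not two-pair against faces of two-pair points -/

/-- both common points are on the closed arc -/
theorem QI0_contactsF (h : Irr U T) (hV : QI0 T NoI V a b m n e f V1 V2) (F : Fc T u s)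
    (hs : s = ({a, b, n} : Set (Fin 6))ᶜ) (h2 : dist u V < 2) :
    ∃ p p', p ≠ p' ∧ dist p V = 1 ∧ dist p' V = 1 ∧ dist p u = 1 ∧ dist p' u = 1 ∧
      p + p' = u + V ∧ p ∈ closure (Ex T V {a, b}) ∧ p' ∈ closure (Ex T V {a, b}) := by
  have hne : u ≠ V := H383.fc_ne F hV.dpt hs h
  obtain ⟨p, p', g1, g2, g3, g4, g5, g6, g7, g8⟩ := H678.two_common h2 hne
  refine ⟨p, p', g1, g3, g5, g2, g4, g8, ?_, ?_⟩
  · rcases hV.le3 h g3 with h5 | h5 | h5
    · exact h5
    · exact h5.elim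
    · exact H383.contact_fc3 h hV.dpt F hs g2 g3 g6 h5
  · rcases hV.le3 h g5 with h5 | h5 | h5
    · exact h5
    · exact h5.elim
    · exact H383.contact_fc3 h hV.dpt F hs g4 g5 g7 h5

/-- a complement of a face is at distance at least root three -/
theorem QI0_farF (h : Irr U T) (hV : QI0 T NoI V a b m n e f V1 V2) (F : Fc T u s)
    (hs : s = ({a, b, n} : Set (Fin 6))ᶜ) : 3 ≤ dist u V ^ 2 := by
  rcases lt_or_ge (dist u V) 2 with h2 | h2
  swap
  · nlinarith
  obtain ⟨p, p', g1, g2, g3, g4, g5, g6, g7, g8⟩ := QI0_contactsF h hV F hs h2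
  exact H678.far_of_diam g4 g5 g6 (hV.diam h g7 g8)

/-- STAY at `V1` : the complement of the face `{a, b, m}` -/
theorem QI0_no_stayF (h : Irr U T) (hV : QI0 T NoI V a b m n e f V1 V2)
    (hV1 : QI0 T NoI V1 a m g b e' f' W1 W2) (F : Fc T u s)
    (hs : s = ({a, b, m} : Set (Fin 6))ᶜ) : 2 ≤ dist u V := by
  by_contra h2
  push Not at h2
  obtain ⟨p, p', g1, g2, g3, g4, g5, g6, g7, g8⟩ := QI0_contactsF h hV.mirror F hs h2
  have h4 := H678.near_end g2 g3 g6 g1 hV.dist1 (hV.diam h g7 (hV.mem1 h))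
    (hV.diam h g8 (hV.mem1 h))
  have h5 := QI0_farF h hV1 F (by rw [hs, Set.pair_comm b m])
  linarith

namespace StW

variable (W : StW T fg)
include W

/-- no harmless point at distance one of a two-pair point -/
theorem sep {A : Set (Fin 6)} (hz : Harm T z A) (hxz : dist x z = 1) {a b c d : Fin 6}
    (hx : DPt T x a b c d) : False := by
  obtain ⟨a, b, m, n, e, f, V1, V2, H⟩ := W.w.qf hx
  have key : ∀ {a b m n e f : Fin 6} {V1 V2 : ℂ}, QI T NoI x a b m n e f V1 V2 → z = V1 →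
      False := by
    rintro a b m n e f V1 V2 H rfl
    obtain ⟨g, h1 | h1⟩ := H.lk1
    · exact not_harm_of_dpt hz h1
    · exact not_harm_of_dpt hz h1
  rcases H.ord z (by rw [dist_comm]; exact hxz) hz.card.ge with h1 | h1 | h1
  · exact key H h1
  · exact key H.mirror h1
  · exact h1

/-- the faces of a two-pair point -/
theorem face (h4 : ∃ a b c d, DPt T V a b c d) (hF : FcD T fg V s) (hs : s.ncard = 3) :
    ∃ (a b m n e f : Fin 6) (V1 V2 : ℂ), QI T NoI V a b m n e f V1 V2 ∧ s = {a, b, m} := by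
  obtain ⟨a0, b0, c0, d0, hD⟩ := h4
  obtain ⟨a, b, m, n, e, f, V1, V2, H⟩ := W.w.qf hD
  have hg := W.gauge H
  have hmn : ¬ ({m, n} : Set (Fin 6)) ⊆ s := by
    rw [← hg]
    exact hF.2 H.ord0.ge
  have hsub : s ⊆ {a, b, m, n} := by rw [← H.pal]; exact hF.1
  have nd := H.nd
  simp only [List.nodup_cons, List.mem_cons, List.not_mem_nil, or_false, not_or,
    List.nodup_nil, and_true, not_false_eq_true] at nd
  obtain ⟨⟨hab, ham, han, hae, haf⟩, ⟨hbm, hbn, hbe, hbf⟩, ⟨hmn', hme, hmf⟩, ⟨hne, hnf⟩, hef⟩ := nd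
  have key : ∀ {m n : Fin 6} {V1 V2 : ℂ}, QI T NoI V a b m n e f V1 V2 → n ∉ s →
      s ⊆ {a, b, m, n} → s = {a, b, m} := by
    intro m n V1 V2 H hn hsub
    refine Set.eq_of_subset_of_ncard_le (fun l hl => ?_) ?_ (Set.toFinite _)
    · rcases hsub hl with h1 | h1 | h1 | h1
      · exact Or.inl h1
      · exact Or.inr (Or.inl h1)
      · exact Or.inr (Or.inr h1)
      · exact absurd (by rw [mem_singleton_iff] at h1; rwa [← h1]) hn
    · rw [hs]
      exact (Set.ncard_insert_le _ _).trans (by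
        have := Set.ncard_insert_le b ({m} : Set (Fin 6))
        simp only [Set.ncard_singleton] at this
        omega)
  by_cases hn : n ∈ s
  · have hm : m ∉ s := fun hm => hmn (by rintro l (rfl | rfl) <;> assumption)
    exact ⟨a, b, n, m, e, f, V2, V1, H.mirror, key H.mirror hm (by
      rw [show ({a, b, n, m} : Set (Fin 6)) = {a, b, m, n} by rw [Set.pair_comm n m]]
      exact hsub)⟩
  · exact ⟨a, b, m, n, e, f, V1, V2, H, key H hn hsub⟩

/-- **a face of a two-pair point against a face of another point** -/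
theorem fc_two (h : Irr U T) (hV : ∃ a b c d, DPt T V a b c d) (hF : FcD T fg V s)
    (hs : s.ncard = 3) (F : Fc T u sᶜ) : 2 ≤ dist u V := by
  obtain ⟨a, b, m, n, e, f, V1, V2, H, rfl⟩ := W.face hV hF hs
  obtain ⟨g, e', f', W', H1⟩ := W.stay H
  exact QI0_no_stayF h H.toQI0 H1.toQI0 F rfl

/-- the world of H678 -/
theorem toQW (h : Irr U T) : H678.QW T (QQ T NoI) := by
  refine W.w.toQW h fun V C A W' C' A' p hQ hQ' hne hne2 hp hp' h4 => ?_
  obtain ⟨a, b, m, n, e, f, V1, V2, rfl, rfl, H⟩ := hQ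
  obtain ⟨a', b', m', n', e', f', W1, W2, rfl, rfl, H'⟩ := hQ'
  refine four_link (p := p) h W.w H H' hne ?_ ?_
  · rcases H.ord p hp h4 with h1 | h1 | h1
    · exact Or.inl h1
    · exact Or.inr h1
    · exact h1.elim
  · rcases H'.ord p hp' h4 with h1 | h1 | h1
    · exact Or.inl h1
    · exact Or.inr h1
    · exact h1.elim

/-- a STAY vertex is not mixed -/
theorem not_lens (h : Irr U T) {C A : Set (Fin 6)} {r t L : Fin 6}
    (H : QI T NoI V a b m n e f V1 V2)
    (hL : H678.QW.Lens T (QQ T NoI) u V C A {a, b} {m, n} r t L) : False := by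
  have nd := H.nd
  simp only [List.nodup_cons, List.mem_cons, List.not_mem_nil, or_false, not_or,
    List.nodup_nil, and_true, not_false_eq_true] at nd
  obtain ⟨⟨hab, ham, han, hae, haf⟩, ⟨hbm, hbn, hbe, hbf⟩, ⟨hmn, hme, hmf⟩, ⟨hne, hnf⟩, hef⟩ := nd
  have key : ∀ {m n : Fin 6} {V1 V2 : ℂ}, QI T NoI V a b m n e f V1 V2 → ({m, n} : Set (Fin 6)) = {m, n} →
      H678.QW.Lens T (QQ T NoI) u V C A {a, b} {m, n} r t L → m = L := by
    intro m n V1 V2 H _ hL
    obtain ⟨g, e1, f1, W', H1⟩ := W.stay H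
    have hD := H1.dpt
    refine hL.mixed V1 a b m g (H.mem1 h) H.ord1.ge rfl hab (by simp) ?_ hD.bc.symm
      ⟨a, m, g, b, e1, f1, W', V, rfl, Set.pair_comm _ _, H1⟩
    rintro (h2 | h2)
    · exact hD.ac h2.symm
    · exact hD.cd h2
  have h1 := key H rfl hL
  have h2 := key H.mirror rfl (by rw [Set.pair_comm n m]; exact hL)
  exact hmn (h1.trans h2.symm)

/-- **faces of two two-pair points** -/
theorem two_two (h : Irr U T) (hV : ∃ a b c d, DPt T V a b c d) (hF : FcD T fg V s)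
    (hs : s.ncard = 3) (hs' : sᶜ.ncard = 3) (hu : ∃ a b c d, DPt T u a b c d)
    (hF' : FcD T fg u sᶜ) : 2 ≤ dist u V := by
  by_contra hlt
  push Not at hlt
  obtain ⟨a, b, m, n, e, f, V1, V2, H, e1⟩ := W.face hV hF hs
  obtain ⟨a', b', m', n', e', f', W1, W2, H', e2⟩ := W.face hu hF' hs'
  have hc : insert m ({a, b} : Set (Fin 6)) = {a, b, m} := by
    ext l; simp only [mem_insert_iff, mem_singleton_iff]; tauto
  have hc' : insert m' ({a', b'} : Set (Fin 6)) = {a', b', m'} := by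
    ext l; simp only [mem_insert_iff, mem_singleton_iff]; tauto
  rcases H678.QW.vw h (W.toQW h) (V := V) (W := u) (C := {a, b}) (A := {m, n}) (C' := {a', b'})
    (A' := {m', n'}) (r := m) (s := m') ⟨a, b, m, n, e, f, V1, V2, rfl, rfl, H⟩
    ⟨a', b', m', n', e', f', W1, W2, rfl, rfl, H'⟩ (by simp) (by simp)
    (by rw [hc, hc', ← e1, ← e2]) (by rw [dist_comm]; exact hlt) with ⟨L, hL⟩ | ⟨L, hL⟩
  · exact W.not_lens h H' hL
  · exact W.not_lens h H hL

end StW

/-! ### faces of points which are not two-pair -/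

/-- a face of a point which is not two-pair -/
theorem DSt.fc_of (D : DSt U T Z fg c R δ₀) (hF : FcD T fg u s) (hs : s.ncard = 3)
    (hu : (T u).ncard ≤ 3 ∨ ∃ A, Harm T u A) : Fc T u s := by
  rcases hu with h3 | ⟨A, hA⟩
  · have e : T u = s :=
      (Set.eq_of_subset_of_ncard_le hF.1 (by rw [hs]; exact h3) (Set.toFinite _)).symm
    rw [← e]; exact D.df.irr.fc_three h3
  · refine fc_harmless hF.1 hA.h1 ?_
    rw [← D.ch.harm u A hA]
    exact hF.2 hA.card.ge

theorem DSt.minF (D : DSt U T Z fg c R δ₀) : MinF U T :=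
  fun z hz s hs hne => D.df.mn z hz s hs hne

/-- the unbroken pair of a harmless point is in the palette of a harmless point at distance one only
if it is the pair of that point -/
def HUp (T : ℂ → Set (Fin 6)) : Prop := ∀ (v q : ℂ) (A B : Set (Fin 6)), Harm T v B →
  Harm T q A → dist v q = 1 → T v \ B ⊆ T q → T v \ B = A

namespace StW

variable (W : StW T fg)
include W

/-- **faces of two points which are not two-pair** -/
theorem fc_fc (D : DSt U T Z fg c R δ₀) (hN : NoComp T) (hup : HUp T) (F : Fc T u s)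
    (F' : Fc T u' sᶜ) (hs : s.ncard = 3) (hs' : sᶜ.ncard = 3)
    (hu : (T u).ncard ≤ 3 ∨ ∃ A, Harm T u A) (hu' : (T u').ncard ≤ 3 ∨ ∃ A, Harm T u' A) :
    2 ≤ dist u u' := by
  have h := D.df.irr
  by_contra hlt
  push Not at hlt
  have hne : u ≠ u' := by
    rintro rfl
    have h1 : (univ : Set (Fin 6)) ⊆ T u := fun i _ => by
      by_cases hi : i ∈ s
      · exact F.sub hi
      · exact F'.sub hi
    have h2 := Set.ncard_le_ncard h1 (Set.toFinite _)
    have h3 := D.df.le4 u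
    rw [Set.ncard_univ, Nat.card_eq_fintype_card, Fintype.card_fin] at h2
    omega
  by_cases h33 : (T u).ncard ≤ 3 ∧ (T u').ncard ≤ 3
  · have e1 := F.eq_of_three hs h33.1
    have e2 := F'.eq_of_three hs' h33.2
    have := H227.comp_far' h hN (u := u) (w := u') (by rw [e1, hs]) (by rw [e1, e2])
      fun q _ _ => D.df.le4 q
    linarith
  obtain ⟨q, hq, hq', hne2⟩ := l2_exists_inter hlt hne
  have h4 := F.four_le' h F' hne hq hq' hne2
  obtain ⟨A, hqA⟩ : ∃ A, Harm T q A := by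
    rcases D.df.harm_or h4 with h5 | ⟨a, b, c', d, hD⟩
    · exact h5
    · exfalso
      rcases hu with h5 | ⟨B, hB⟩
      · rcases hu' with h6 | ⟨B', hB'⟩
        · exact h33 ⟨h5, h6⟩
        · exact W.sep hB' hq' hD
      · exact W.sep hB hq hD
  have hqn : ∀ᶠ y in 𝓝 q, 4 ≤ (T y).ncard → ∃ A', Harm T y A' := by
    have hev : ∀ᶠ y in 𝓝 q, ¬ ∃ a b c d, DPt T y a b c d := by
      rw [← not_frequently]
      intro hcl
      obtain ⟨a, b, c', d, hD⟩ := D.df.dpt_of_closure (mem_closure_iff_frequently.2 hcl)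
      exact not_harm_of_dpt hqA hD
    filter_upwards [hev] with y hy hy4
    rcases D.df.harm_or hy4 with h5 | h5
    · exact h5
    · exact absurd h5 hy
  have key : ∀ v, dist q v = 1 → ((T v).ncard ≤ 3 ∨ ∃ B, Harm T v B) → (T v).ncard ≤ 3 ∨
      ∃ B, Harm T v B ∧ (∀ r, r ⊆ T v → r ≠ T v → ¬ ∀ᶠ w in 𝓝 v, Suf U r w) ∧
        (T v \ B ⊆ T q → T v \ B = A) := by
    rintro v hqv (h5 | ⟨B, hB⟩)
    · exact Or.inl h5
    · exact Or.inr ⟨B, hB, D.minF v hB.card.ge,
        hup v q A B hB hqA (by rw [dist_comm]; exact hqv)⟩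
  have F'' : Fc T u sᶜᶜ := by rw [compl_compl]; exact F
  have k1 : A ⊆ s := F.pair_sub h F' hne hs hq hq' hne2 hqA hqn (key u hq hu)
  have k2 : A ⊆ sᶜ := F'.pair_sub h F'' hne.symm hs' hq' hq (by rwa [add_comm]) hqA hqn
    (key u' hq' hu')
  obtain ⟨l, hl⟩ : A.Nonempty := by
    rw [← Set.ncard_pos (Set.toFinite _), hqA.cardA]; norm_num
  exact k2 hl (k1 hl)

/-- **complementary faces are at distance at least two** -/
theorem far (D : DSt U T Z fg c R δ₀) (hN : NoComp T) (hup : HUp T) (hF : FcD T fg u s)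
    (hF' : FcD T fg u' sᶜ) (hs : s.ncard = 3) (hs' : sᶜ.ncard = 3) : 2 ≤ dist u u' := by
  have h := D.df.irr
  have cs : ∀ v, ((T v).ncard ≤ 3 ∨ ∃ A, Harm T v A) ∨ ∃ a b c d, DPt T v a b c d := by
    intro v
    rcases le_or_gt (T v).ncard 3 with h1 | h1
    · exact Or.inl (Or.inl h1)
    · rcases D.df.harm_or h1 with h2 | h2
      · exact Or.inl (Or.inr h2)
      · exact Or.inr h2
  rcases cs u with hu | hu <;> rcases cs u' with hu' | hu'
  · exact W.fc_fc D hN hup (D.fc_of hF hs hu) (D.fc_of hF' hs' hu') hs hs' hu hu'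
  · exact W.fc_two h hu' hF' hs' (by rw [compl_compl]; exact D.fc_of hF hs hu)
  · rw [dist_comm]
    exact W.fc_two h hu hF hs (D.fc_of hF' hs' hu')
  · rw [dist_comm]
    exact W.two_two h hu hF hs hs' hu' hF'

/-! ### the midpoint case -/

/-- at a point of the circle outside the closed connecting arc -/
theorem arcX (D : DSt U T Z fg c R δ₀) (hA : OffA T fg x) (hF : FcD T fg u s) (hs : s.ncard = 3)
    (hxu : dist x u = 1) (ht : T x ⊆ insert i s) : ∀ᶠ q in 𝓝[sphere u 1] x, i ∈ T q := by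
  have h := D.df.irr
  have fc : ((T u).ncard ≤ 3 ∨ ∃ A, Harm T u A) → ∀ᶠ q in 𝓝[sphere u 1] x, i ∈ T q :=
    fun hu => (D.fc_of hF hs hu).arcX h ht
  rcases le_or_gt (T u).ncard 3 with h1 | h1
  · exact fc (Or.inl h1)
  rcases D.df.harm_or h1 with h2 | h2
  · exact fc (Or.inr h2)
  obtain ⟨a, b, m, n, e, f, V1, V2, H, rfl⟩ := W.face h2 hF hs
  have hD := H.dpt
  have hap : T u \ fg u = {a, b} := by
    rw [W.gauge H, hD.pal]
    ext l
    simp only [Set.mem_sdiff, mem_insert_iff, mem_singleton_iff, not_or]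
    constructor
    · rintro ⟨h3 | h3 | h3 | h3, h4, h5⟩
      · exact Or.inl h3
      · exact Or.inr h3
      · exact absurd h3 h4
      · exact absurd h3 h5
    · rintro (rfl | rfl)
      · exact ⟨Or.inl rfl, hD.ac, hD.ad⟩
      · exact ⟨Or.inr (Or.inl rfl), hD.bc, hD.bd⟩
  have hcl : x ∉ closure (Ex T u {a, b}) :=
    hA u a b m n hD hap (by rw [dist_comm]; exact hxu)
  have hev : ∀ᶠ y in 𝓝[sphere u 1] x, ∀ᶠ q in 𝓝 y, q ∉ closure (Ex T u {a, b}) := by
    have h3 : IsOpen (closure (Ex T u {a, b}))ᶜ := isClosed_closure.isOpen_compl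
    filter_upwards [mem_nhdsWithin_of_mem_nhds (h3.mem_nhds hcl)] with y hy
    exact h3.mem_nhds hy
  filter_upwards [hev, self_mem_nhdsWithin, mem_nhdsWithin_of_mem_nhds (h.nhd x)]
    with y hy hyV hyx
  by_contra hiy
  have hsub : T y ⊆ {a, b, m} := fun l hl => by
    rcases ht (hyx hl) with h3 | h3
    · exact absurd (h3 ▸ hl) hiy
    · exact h3
  have hyV : dist y u = 1 := hyV
  have hsubV : T y ⊆ T u := by
    rw [hD.pal]
    intro l hl
    rcases hsub hl with h3 | h3 | h3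
    · exact Or.inl h3
    · exact Or.inr (Or.inl h3)
    · exact Or.inr (Or.inr (Or.inl h3))
  obtain ⟨q, hq, hqV, hloc, hqy, -, -⟩ := h.arc_of_sub hyV hsubV (V := {q | q ∉ closure
    (Ex T u {a, b})}) hy
  rcases h.twoPairs hD q hqV hloc (hqy.trans hsubV) with h3 | h3
  · refine hq (subset_closure ⟨hqV, ?_⟩)
    exact hloc.mono fun q' h4 => h4.trans h3
  · have h4 : n ∈ T q := by rw [h3]; simp
    rcases hsub (hqy h4) with h5 | h5 | h5
    · exact hD.ad h5.symm
    · exact hD.bd h5.symm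
    · exact hD.cd h5.symm

/-- **Lens lemma** for the faces `FcD` -/
theorem lens (D : DSt U T Z fg c R δ₀) (hA : OffA T fg x) (hF : FcD T fg u' s) (hs : s.ncard = 3)
    (hxu : dist x u' = 1) (huv : u + u' = 2 * x) (ht : T x ⊆ insert i s) :
    ∀ᶠ w in 𝓝[closedBall x 1 \ {u}] u, i ∉ T w := by
  have h := D.df.irr
  have hu : 2 * x - u' = u := by rw [← huv]; ring
  have h1 := h.mx.lens0 hxu ((W.arcX D hA hF hs hxu ht).mono fun q hq => h.sub q hq)
  rw [hu] at h1
  filter_upwards [mem_nhdsWithin_of_mem_nhds h1, self_mem_nhdsWithin] with w h2 h3 h4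
  refine h3.2 ?_
  rw [mem_singleton_iff, ← hu]
  exact l2_eq_antipode hxu h3.1 (h2 (h.sub w h4))

end StW

namespace DSt

/-- **The complement rule** at a point with at most three colours outside the connecting arcs -/
theorem r1_three (D : DSt U T Z fg c R δ₀) (W : StW T fg) (hN : NoComp T) (hup : HUp T)
    (hx : dist x c ≤ R - 1) (h3 : (T x).ncard ≤ 3) (hA : OffA T fg x) {i j a b d e : Fin 6}
    (hn : [i, j, a, b, d, e].Nodup) (hi : i ∈ T x) (hj : j ∈ T x)
    (h1 : lamT T Z fg δ₀ i x a b ≠ 0) (h2 : lamT T Z fg δ₀ j x d e ≠ 0) : False := by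
  obtain ⟨u, hu, hF, hev⟩ := D.supp hx hi h1
  obtain ⟨u', hu', hF', hev'⟩ := D.supp hx hj h2
  have hall := all_names353 hn
  simp only [List.nodup_cons, List.mem_cons, List.not_mem_nil, or_false, not_or,
    List.nodup_nil, and_true, not_false_eq_true] at hn
  obtain ⟨⟨ij, ia, ib, id, ie⟩, ⟨ja, jb, jd, je⟩, ⟨ab, ad, ae⟩, ⟨bd, be⟩, de⟩ := hn
  have hc : ({j, d, e} : Set (Fin 6)) = ({i, a, b} : Set (Fin 6))ᶜ := by
    ext l
    simp only [mem_compl_iff, mem_insert_iff, mem_singleton_iff, not_or]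
    constructor
    · rintro (rfl | rfl | rfl)
      · exact ⟨Ne.symm ij, ja, jb⟩
      · exact ⟨Ne.symm id, Ne.symm ad, Ne.symm bd⟩
      · exact ⟨Ne.symm ie, Ne.symm ae, Ne.symm be⟩
    · rintro ⟨g1, g2, g3⟩
      rcases hall l with g4 | g4 | g4 | g4 | g4 | g4
      · exact absurd g4 g1
      · exact Or.inl g4
      · exact absurd g4 g2
      · exact absurd g4 g3
      · exact Or.inr (Or.inl g4)
      · exact Or.inr (Or.inr g4)
  have hs : ({i, a, b} : Set (Fin 6)).ncard = 3 := Set.ncard_eq_three.2 ⟨i, a, b, ia, ib, ab, rfl⟩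
  have hs' : ({j, d, e} : Set (Fin 6)).ncard = 3 := Set.ncard_eq_three.2 ⟨j, d, e, jd, je, de, rfl⟩
  have hfar : 2 ≤ dist u u' := W.far D hN hup hF (by rw [← hc]; exact hF') hs (by rw [← hc, hs'])
  have hu := mem_closedBall.1 hu
  have hu' := mem_closedBall.1 hu'
  have htri := dist_triangle u x u'
  have hxu' : dist x u' = 1 := by
    rw [dist_comm x u'] at htri ⊢
    linarith
  have hxu : dist x u = 1 := by
    rw [hxu'] at htri
    rw [dist_comm]
    linarith
  have hmid : u + u' = 2 * x := by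
    have := mid353 (V := x) (y := u') (u := u) (by rw [dist_comm]; exact hxu') hu hfar
    exact this
  by_cases hT : T x ⊆ insert i ({j, d, e} : Set (Fin 6))
  · refine hev ?_
    filter_upwards [W.lens D hA hF' hs' hxu' hmid hT] with w hw
    exact hw
  by_cases hT' : T x ⊆ insert j ({i, a, b} : Set (Fin 6))
  · refine hev' ?_
    filter_upwards [W.lens D hA hF hs hxu (by rw [add_comm]; exact hmid) hT'] with w hw
    exact hw
  obtain ⟨k, hk, hk'⟩ := Set.not_subset.1 hT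
  obtain ⟨l, hl, hl'⟩ := Set.not_subset.1 hT'
  simp only [mem_insert_iff, mem_singleton_iff, not_or] at hk' hl'
  have h4 : ({i, k, j, l} : Set (Fin 6)) ⊆ T x := by
    rintro w (rfl | rfl | rfl | rfl) <;> assumption
  have hkl : k ≠ l := by
    rintro rfl
    rcases hall k with g4 | g4 | g4 | g4 | g4 | g4 <;> tauto
  have h5 : ({i, k, j, l} : Set (Fin 6)).ncard = 4 := by
    rw [Set.ncard_insert_of_notMem, Set.ncard_insert_of_notMem, Set.ncard_pair]
    · exact Ne.symm hl'.1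
    · simp only [mem_insert_iff, mem_singleton_iff, not_or]
      exact ⟨hk'.2.1, hkl⟩
    · simp only [mem_insert_iff, mem_singleton_iff, not_or]
      exact ⟨Ne.symm hk'.1, ij, Ne.symm hl'.2.1⟩
  have h6 := Set.ncard_le_ncard h4 (Set.toFinite _)
  omega

/-! ### harmless points -/

/-- near a harmless point there is no connecting arc -/
theorem offA_near (D : DSt U T Z fg c R δ₀) (W : StW T fg) {B : Set (Fin 6)} (hx : Harm T x B) :
    ∀ᶠ w in 𝓝 x, OffA T fg w := by
  have hS := (D.df.fin x 2)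
  have h1 : ∀ᶠ w in 𝓝 x, ∀ z ∈ {z | dist z x ≤ 2 ∧ ∃ a b c d, DPt T z a b c d},
      dist z w ≠ 1 := by
    refine (hS.eventually_all).2 fun z hz => ?_
    obtain ⟨-, a, b, c', d, hD⟩ := hz
    have h2 : dist z x ≠ 1 := fun h2 => W.sep hx h2 hD
    exact (continuous_const.dist continuous_id).continuousAt.eventually_ne h2
  filter_upwards [h1, ball_mem_nhds x one_pos] with w h2 h3 z a b m n hD _ hzw _
  refine h2 z ⟨?_, a, b, m, n, hD⟩ hzw
  have h4 := dist_triangle z w x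
  have h5 := mem_ball.1 h3
  linarith

/-- **The complement rule** at a harmless point, one colour in the pair and one outside -/
theorem r1_harm (D : DSt U T Z fg c R δ₀) (W : StW T fg) (hN : NoComp T) (hup : HUp T)
    (hx : dist x c < R - 1) {B : Set (Fin 6)} (hB : Harm T x B) {i j a b d e : Fin 6}
    (hn : [i, j, a, b, d, e].Nodup) (hi : i ∈ B) (hj : j ∈ T x) (hjB : j ∉ B)
    (h1 : lamT T Z fg δ₀ i x a b ≠ 0) (h2 : lamT T Z fg δ₀ j x d e ≠ 0) : False := by
  have hf := hB.contact D.df.irr (D.minF x hB.card.ge) hi hj hjB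
  have hev : ∀ᶠ w in 𝓝 x, dist w c < R - 1 :=
    (continuous_id.dist continuous_const).continuousAt.eventually (Iio_mem_nhds hx)
  obtain ⟨w, hw, h3, h4, h5, h6⟩ := (hf.and_eventually (hev.and ((D.loc hx.le (hB.sub hi)).and
    ((D.loc hx.le hj).and (D.offA_near W hB))))).exists
  have hi' : i ∈ T w := by rw [hw]; simp
  have hj' : j ∈ T w := by rw [hw]; simp
  refine D.r1_three W hN hup h3.le ?_ h6 hn hi' hj' (by rw [h4 hi']; exact h1)
    (by rw [h5 hj']; exact h2)
  rw [hw]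
  exact (Set.ncard_insert_le _ _).trans (by simp)

/-- agreement at a harmless point, one colour in the pair and one outside -/
theorem ag_harm (D : DSt U T Z fg c R δ₀) (W : StW T fg) (hup : HUp T)
    (hx : dist x c ≤ R - 1) {B : Set (Fin 6)} (hB : Harm T x B) {i j : Fin 6} (hi : i ∈ B)
    (hj : j ∈ T x) (hjB : j ∉ B) : AgAt T Z fg δ₀ x i j := by
  have hij : i ≠ j := fun h => hjB (h ▸ hi)
  refine ⟨hij, fun d _ _ => D.agree hx (fun y hy hsub => ?_) (fun z hzx h4 hsub => ?_) d⟩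
  · have h1 : T y ⊆ T x := hsub.trans (by
      rintro l (rfl | rfl)
      · exact hB.sub hi
      · exact hj)
    have h2 : B ⊆ {i, j} := (hB.h1 y hy h1).trans hsub
    have h3 : B = {i, j} := Set.eq_of_subset_of_ncard_le h2
      (by rw [hB.cardA]; exact (Set.ncard_insert_le _ _).trans (by simp)) (Set.toFinite _)
    exact hjB (by rw [h3]; simp)
  · rcases D.df.harm_or h4 with ⟨A, hA⟩ | ⟨a, b, c', e, hD⟩
    · rw [D.ch.harm z A hA] at hsub
      have h1 : T z \ A ⊆ T x := hsub.trans (by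
        rintro l (rfl | rfl)
        · exact hB.sub hi
        · exact hj)
      have h2 := hup z x B A hA hB hzx h1
      rw [h2] at hsub
      have h3 : B = {i, j} := Set.eq_of_subset_of_ncard_le hsub
        (by rw [hB.cardA]; exact (Set.ncard_insert_le _ _).trans (by simp)) (Set.toFinite _)
      exact hjB (by rw [h3]; simp)
    · exact W.sep hB hzx hD

theorem hup (W : StW T fg) (h : DF U T) : HUp T := fun v q A B hv hq hd hsub =>
  (up_QI h W.w (fun _ _ _ h1 _ => h1) hv hq (by rw [dist_comm]; exact hd) hsub).symm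

/-- the complement rule for two colours from a third one -/
theorem r1_third {L : Fin 6 → Fin 6 → Fin 6 → ZMod 2} {i j k a b d e : Fin 6}
    (hsy : ∀ i a b, L i a b = L i b a)
    (Gik : ∀ d, i ≠ d → k ≠ d → L i k d = L k i d) (Gjk : ∀ d, j ≠ d → k ≠ d → L j k d = L k j d)
    (Mik : ∀ a b d e, [i, k, a, b, d, e].Nodup → L i a b ≠ 0 → L k d e ≠ 0 → False)
    (Mjk : ∀ a b d e, [j, k, a, b, d, e].Nodup → L j a b ≠ 0 → L k d e ≠ 0 → False)
    (hki : k ≠ i) (hkj : k ≠ j) (hn : [i, j, a, b, d, e].Nodup) (h1 : L i a b ≠ 0)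
    (h2 : L j d e ≠ 0) : False := by
  have hall := all_names353 hn k
  simp only [List.nodup_cons, List.mem_cons, List.not_mem_nil, or_false, not_or,
    List.nodup_nil, and_true, not_false_eq_true] at hn Mik Mjk
  obtain ⟨⟨ij, ia, ib, id, ie⟩, ⟨ja, jb, jd, je⟩, ⟨ab, ad, ae⟩, ⟨bd, be⟩, de⟩ := hn
  rcases hall with h | h | h | h | h | h
  · exact hki h
  · exact hkj h
  · subst h
    refine Mjk d e i b ?_ h2 (by rw [← Gik b ib ab]; exact h1)
    exact ⟨⟨ja, jd, je, Ne.symm ij, jb⟩, ⟨ad, ae, Ne.symm ia, ab⟩, ⟨de, Ne.symm id, Ne.symm bd⟩,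
      ⟨Ne.symm ie, Ne.symm be⟩, ib⟩
  · subst h
    refine Mjk d e i a ?_ h2 (by rw [← Gik a ia (Ne.symm ab), hsy]; exact h1)
    exact ⟨⟨jb, jd, je, Ne.symm ij, ja⟩, ⟨bd, be, Ne.symm ib, Ne.symm ab⟩,
      ⟨de, Ne.symm id, Ne.symm ad⟩, ⟨Ne.symm ie, Ne.symm ae⟩, ia⟩
  · subst h
    refine Mik a b j e ?_ h1 (by rw [← Gjk e je de]; exact h2)
    exact ⟨⟨id, ia, ib, ij, ie⟩, ⟨Ne.symm ad, Ne.symm bd, Ne.symm jd, de⟩, ⟨ab, Ne.symm ja, ae⟩,
      ⟨Ne.symm jb, be⟩, je⟩
  · subst h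
    refine Mik a b j d ?_ h1 (by rw [← Gjk d jd (Ne.symm de), hsy]; exact h2)
    exact ⟨⟨ie, ia, ib, ij, id⟩, ⟨Ne.symm ae, Ne.symm be, Ne.symm je, Ne.symm de⟩,
      ⟨ab, Ne.symm ja, ad⟩, ⟨Ne.symm jb, bd⟩, jd⟩

/-- **Field `r1`**, literal form -/
theorem r1_553 (D : DSt U T Z fg c R δ₀) (W : StW T fg) (hN : NoComp T)
    (hx : dist x c < R - 1) (hA : OffA T fg x) (hB : ∀ a b m n, ¬ DPt T x a b m n)
    {i j a b d e : Fin 6} (hn : [i, j, a, b, d, e].Nodup) (hi : i ∈ T x) (hj : j ∈ T x)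
    (h1 : lamT T Z fg δ₀ i x a b ≠ 0) (h2 : lamT T Z fg δ₀ j x d e ≠ 0) : False := by
  have hup := hup W D.df
  rcases le_or_gt (T x).ncard 3 with h3 | h3
  · exact D.r1_three W hN hup hx.le h3 hA hn hi hj h1 h2
  obtain ⟨B, hH⟩ : ∃ B, Harm T x B := by
    rcases D.df.harm_or h3 with h | ⟨a, b, c', d, h⟩
    · exact h
    · exact absurd h (hB a b c' d)
  have G : ∀ {i j : Fin 6}, i ∈ B → j ∈ T x → j ∉ B → ∀ d, i ≠ d → j ≠ d →
      lamT T Z fg δ₀ i x j d = lamT T Z fg δ₀ j x i d :=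
    fun hi hj hjB => (D.ag_harm W hup hx.le hH hi hj hjB).2
  have M : ∀ {i j a b d e : Fin 6}, i ∈ B → j ∈ T x → j ∉ B → [i, j, a, b, d, e].Nodup →
      lamT T Z fg δ₀ i x a b ≠ 0 → lamT T Z fg δ₀ j x d e ≠ 0 → False :=
    fun hi hj hjB hn h1 h2 => D.r1_harm W hN hup hx hH hn hi hj hjB h1 h2
  have M' : ∀ {i j a b d e : Fin 6}, i ∈ B → j ∈ T x → j ∉ B → [j, i, a, b, d, e].Nodup →
      lamT T Z fg δ₀ j x a b ≠ 0 → lamT T Z fg δ₀ i x d e ≠ 0 → False := by
    intro i j a b d e hi hj hjB hn h1 h2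
    refine M (a := d) (b := e) (d := a) (e := b) hi hj hjB ?_ h2 h1
    simp only [List.nodup_cons, List.mem_cons, List.not_mem_nil, or_false, not_or,
      List.nodup_nil, and_true, not_false_eq_true] at hn ⊢
    obtain ⟨⟨ij, ia, ib, id, ie⟩, ⟨ja, jb, jd, je⟩, ⟨ab, ad, ae⟩, ⟨bd, be⟩, de⟩ := hn
    exact ⟨⟨Ne.symm ij, jd, je, ja, jb⟩, ⟨id, ie, ia, ib⟩, ⟨de, Ne.symm ad, Ne.symm bd⟩,
      ⟨Ne.symm ae, Ne.symm be⟩, ab⟩
  by_cases hiB : i ∈ B <;> by_cases hjB : j ∈ B
  · obtain ⟨k, hk⟩ : (T x \ B).Nonempty := by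
      rw [← Set.ncard_pos (Set.toFinite _), hH.cardC]; norm_num
    exact r1_third (L := fun i a b => lamT T Z fg δ₀ i x a b) (fun i a b => lamT_symm i x a b)
      (G hiB hk.1 hk.2) (G hjB hk.1 hk.2) (fun _ _ _ _ => M hiB hk.1 hk.2)
      (fun _ _ _ _ => M hjB hk.1 hk.2) (fun h => hk.2 (h ▸ hiB)) (fun h => hk.2 (h ▸ hjB)) hn h1 h2
  · exact M hiB hj hjB hn h1 h2
  · exact M' hjB hi hiB hn h1 h2
  · obtain ⟨k, hk⟩ : B.Nonempty := by
      rw [← Set.ncard_pos (Set.toFinite _), hH.cardA]; norm_num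
    exact r1_third (L := fun i a b => lamT T Z fg δ₀ i x a b) (fun i a b => lamT_symm i x a b)
      (fun d h1 h2 => (G hk hi hiB d h2 h1).symm) (fun d h1 h2 => (G hk hj hjB d h2 h1).symm)
      (fun _ _ _ _ => M' hk hi hiB) (fun _ _ _ _ => M' hk hj hjB) (fun h => hiB (h ▸ hk))
      (fun h => hjB (h ▸ hk)) hn h1 h2

/-- **Field `agr`** in the world -/
theorem agr_W (D : DSt U T Z fg c R δ₀) (W : StW T fg) (hx : dist x c ≤ R - 1) (hA : OffA T fg x)
    (hB : ∀ a b m n, ¬ DPt T x a b m n) (hi : i ∈ T x) (hj : j ∈ T x) (hij : i ≠ j)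
    (hdg : ¬ Dg T x i j) :
    AgAt T Z fg δ₀ x i j ∨ ∃ k ∈ T x, AgAt T Z fg δ₀ x i k ∧ AgAt T Z fg δ₀ x k j := by
  refine D.agr553 D.minF hx hA hB (fun h4 z a b m n hD _ hzx _ _ => ?_) hi hj hij hdg
  rcases D.df.harm_or h4 with ⟨B, hH⟩ | ⟨a, b, c', d, h⟩
  · exact W.sep hH hzx hD
  · exact hB a b c' d h

end DSt

/-- agreement and the complement rule for the states of two colours -/
def RAt (T : ℂ → Set (Fin 6)) (Z : Set ℂ) (f : ℂ → Set (Fin 6)) (δ₀ : ℝ) (x : ℂ)
    (i j : Fin 6) : Prop :=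
  AgAt T Z f δ₀ x i j ∧ ∀ a b d e : Fin 6, [i, j, a, b, d, e].Nodup →
    lamT T Z f δ₀ i x a b ≠ 0 → lamT T Z f δ₀ j x d e ≠ 0 → False

theorem AgAt.symm553 (h : AgAt T Z fg δ₀ x i j) : AgAt T Z fg δ₀ x j i :=
  ⟨h.1.symm, fun d hj hi => (h.2 d hi hj).symm⟩

theorem RAt.symm (h : RAt T Z fg δ₀ x i j) : RAt T Z fg δ₀ x j i := by
  refine ⟨h.1.symm553, fun a b d e hn h1 h2 => h.2 d e a b ?_ h2 h1⟩
  simp only [List.nodup_cons, List.mem_cons, List.not_mem_nil, or_false, not_or,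
    List.nodup_nil, and_true, not_false_eq_true] at hn ⊢
  obtain ⟨⟨ij, ia, ib, id, ie⟩, ⟨ja, jb, jd, je⟩, ⟨ab, ad, ae⟩, ⟨bd, be⟩, de⟩ := hn
  exact ⟨⟨Ne.symm ij, jd, je, ja, jb⟩, ⟨id, ie, ia, ib⟩, ⟨de, Ne.symm ad, Ne.symm bd⟩,
    ⟨Ne.symm ae, Ne.symm be⟩, ab⟩

/-- **The fields `agr` and `r1` together**: every two colours of a point outside the connecting arcs
which is no two-pair point are joined by agreement and the complement rule, directly or over a third
colour. -/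
theorem DSt.rat553 (D : DSt U T Z fg c R δ₀) (W : StW T fg) (hN : NoComp T) (hup : HUp T)
    (hx : dist x c < R - 1) (hA : OffA T fg x) (hB : ∀ a b m n, ¬ DPt T x a b m n)
    (hi : i ∈ T x) (hj : j ∈ T x) (hij : i ≠ j) :
    RAt T Z fg δ₀ x i j ∨ ∃ k ∈ T x, RAt T Z fg δ₀ x i k ∧ RAt T Z fg δ₀ x k j := by
  by_cases h3 : (T x).ncard ≤ 3
  · have hr : ∀ {i j : Fin 6}, i ∈ T x → j ∈ T x → AgAt T Z fg δ₀ x i j → RAt T Z fg δ₀ x i j :=
      fun hi hj h => ⟨h, fun a b d e hn h1 h2 => D.r1_three W hN hup hx.le h3 hA hn hi hj h1 h2⟩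
    have hdg : ¬ Dg T x i j := fun h => by
      have := h.ncard780
      omega
    rcases D.agr553 D.minF hx.le hA hB (fun h4 => absurd h4 (by omega)) hi hj hij hdg with
      h | ⟨k, hk, h1, h2⟩
    · exact Or.inl (hr hi hj h)
    · exact Or.inr ⟨k, hk, hr hi hk h1, hr hk hj h2⟩
  · push Not at h3
    obtain ⟨B, hH⟩ : ∃ B, Harm T x B := by
      rcases D.df.harm_or h3 with h | ⟨a, b, c', d, h⟩
      · exact h
      · exact absurd h (hB a b c' d)
    have hr : ∀ {i j : Fin 6}, i ∈ B → j ∈ T x → j ∉ B → RAt T Z fg δ₀ x i j :=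
      fun hi hj hjB => ⟨D.ag_harm W hup hx.le hH hi hj hjB, fun a b d e hn h1 h2 =>
        D.r1_harm W hN hup hx hH hn hi hj hjB h1 h2⟩
    by_cases hiB : i ∈ B <;> by_cases hjB : j ∈ B
    · obtain ⟨k, hk⟩ : (T x \ B).Nonempty := by
        rw [← Set.ncard_pos (Set.toFinite _), hH.cardC]; norm_num
      exact Or.inr ⟨k, hk.1, hr hiB hk.1 hk.2, (hr hjB hk.1 hk.2).symm⟩
    · exact Or.inl (hr hiB hj hjB)
    · exact Or.inl (hr hjB hi hiB).symm
    · obtain ⟨k, hk⟩ : B.Nonempty := by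
        rw [← Set.ncard_pos (Set.toFinite _), hH.cardA]; norm_num
      exact Or.inr ⟨k, hH.sub hk, (hr hk hi hiB).symm, hr hk hj hjB⟩

end Vale.Agent.P032.Six
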