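import Vale.Agent.P032.H553.ClR1W
import Vale.Agent.P032.H802.Lt60Q
import Vale.Agent.P032.H484.Tile
import Vale.Agent.P032.H383.Lk

/-!
# P032, TipI: the inner colour of a link is not a colour of the third vertex of its unit triangle

World `StW2` : `StW` and the letter of every STAY link is a free colour.
`StW2.lt60`, `StW2.inner_out` : `z`, `V1` linked with the inner colour `a`, `x` at distance one from
both: `a ∉ T x`.
-/

open Set Filter Topology Metric

noncomputable section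

namespace Vale.Agent.P032.Six

open Vale.Agent.P032.S5.H767 Vale.Agent.P032.H747 Vale.Agent.P032.H961

variable {U : Fin 6 → Set ℂ} {T : ℂ → Set (Fin 6)} {fg : ℂ → Set (Fin 6)} {Inv : ℂ → ℂ → Prop}
  {x z V V1 V2 : ℂ} {a b m n e f : Fin 6}

/-- the world of STAY chains, the letter of a link is a free colour -/
structure StW2 (T : ℂ → Set (Fin 6)) (fg : ℂ → Set (Fin 6)) : Prop extends StW T fg where
  stay2 : ∀ {V V1 V2 : ℂ} {a b m n e f : Fin 6}, QI T NoI V a b m n e f V1 V2 →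
    ∃ (g e' f' : Fin 6) (W : ℂ), QI T NoI V1 a m g b e' f' W V ∧ g ≠ n

theorem stay2_553 {Inv : ℂ → ℂ → Prop} (hw : QIW T Inv)
    (hS : ∀ V l name, ChI nxR802 T Inv V l name → ∀ j, l j = 2) {V V1 V2 : ℂ}
    {a b m n e f : Fin 6} (H : QI T Inv V a b m n e f V1 V2) :
    ∃ (g e' f' : Fin 6) (W : ℂ), QI T Inv V1 a m g b e' f' W V ∧ g ≠ n := by
  have nd := H.nd
  simp only [List.nodup_cons, List.mem_cons, List.not_mem_nil, or_false, not_or,
    List.nodup_nil, and_true, not_false_eq_true] at nd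
  obtain ⟨⟨hab, ham, han, hae, haf⟩, ⟨hbm, hbn, hbe, hbf⟩, ⟨hmn, hme, hmf⟩, ⟨hne, hnf⟩, hef⟩ := nd
  obtain ⟨Vs, l, name, hC, h0, h1, -, hn⟩ := exists_chIA hw (V₀ := V) (V1 := V1) (V2 := V2)
    (ν := ![a, b, m, n, e, f]) H
  obtain ⟨s, hR⟩ := hC.rel802
  have h2 : swl802 (s 0) (l 0) = 2 := hS _ _ _ hR 0
  have h3 := hR.qf 1
  have hnm : ∀ r, name 1 (sw802 (s 1) r) = name 0 (sw802 (s 0) (nxR802 2 r)) := by
    intro r
    have h4 := hR.nm 0 r
    simp only [zero_add] at h4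
    rw [h2] at h4
    exact h4
  simp only [hnm, hn] at h3
  rw [show (1 : ℤ) - 1 = 0 by norm_num, h0, h1] at h3
  rcases hs : s 0 with _ | _
  · rw [hs] at h3
    exact ⟨f, n, e, _, h3, Ne.symm hnf⟩
  · rw [hs] at h3
    exact ⟨e, n, f, _, h3, Ne.symm hne⟩

theorem StW2.of (hw : QIW T NoI) (G : GaugeI758 T NoI fg)
    (hS : ∀ V l name, ChI nxR802 T NoI V l name → ∀ j, l j = 2) : StW2 T fg :=
  ⟨StW.of hw G hS, stay2_553 hw hS⟩

/-- the connecting arcs are shorter than sixty degrees -/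
theorem StW2.lt60 (W : StW2 T fg) (h : Irr U T) (H : QI T NoI V a b m n e f V1 V2) :
    dist V1 V2 < 1 := by
  refine lt_of_le_of_ne H.toQI0.dist12 fun h1 => ?_
  rcases lt60_802 h W.w H h1 with h2 | h2
  · obtain ⟨g, e', f', W', H1, hgn⟩ := W.stay2 H
    have nd := H1.nd
    simp only [List.nodup_cons, List.mem_cons, List.not_mem_nil, or_false, not_or,
      List.nodup_nil, and_true, not_false_eq_true] at nd
    have hg : g ∈ T V1 := by rw [H1.pal]; simp
    rw [h2.1, H.pal] at hg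
    simp only [mem_insert_iff, mem_singleton_iff] at hg
    rcases hg with hg | hg | hg | hg
    · exact nd.1.2.1 hg.symm
    · exact nd.2.2.1.1 hg
    · exact nd.2.1.1 hg.symm
    · exact hgn hg
  · exact h2.1

/-- a connected set with the colour `a` is on one side of the circle about a point with `a` -/
theorem cross_far553 (h : Irr U T) {K : Set ℂ} (hK : IsPreconnected K)
    (hKa : ∀ w ∈ K, a ∈ Pal U w) (hx : a ∈ Pal U x) {q1 q2 : ℂ} (h1 : q1 ∈ K) (h2 : q2 ∈ K)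
    (d1 : dist q1 x < 1) (d2 : 1 < dist q2 x) : False := by
  have e1 : ∀ᶠ w in 𝓝 x, dist q1 w < 1 :=
    (continuous_const.dist continuous_id).continuousAt.eventually (Iio_mem_nhds d1)
  have e2 : ∀ᶠ w in 𝓝 x, 1 < dist q2 w :=
    (continuous_const.dist continuous_id).continuousAt.eventually (Ioi_mem_nhds d2)
  obtain ⟨w, ⟨h3, h4⟩, hw⟩ := mem_closure_iff_nhds.1 hx _ (e1.and e2)
  have hc : ContinuousOn (fun r => dist r w) K := by fun_prop
  obtain ⟨r, hr, hr1⟩ := hK.intermediate_value h1 h2 hc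
    (show (1 : ℝ) ∈ Icc (dist q1 w) (dist q2 w) from ⟨h3.le, h4.le⟩)
  exact h.mx.notMem' hw (by rw [dist_comm]; exact hr1) (hKa r hr)

/-! ### the distance formula -/

/-- the defect -/
def Fd (α β : ℝ) : ℝ := 4 * Real.sin (α / 2) * (Real.sin (α / 2) - Real.sin (β + α / 2))

theorem dist_Fd {p z : ℂ} {ζ θ α : ℝ} (hz : z = pt p ζ) :
    dist (pt z (ζ + 3 + α)) (pt p θ) ^ 2 =
      1 + Fd (α * (Real.pi / 3)) ((ζ - θ) * (Real.pi / 3)) := by
  subst hz
  set A := ζ * (Real.pi / 3) with hA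
  set B := α * (Real.pi / 3) with hB
  set C := θ * (Real.pi / 3) with hC
  have e1 : pt (pt p ζ) (ζ + 3 + α) - pt p θ = cis A - cis (A + B) - cis C := by
    unfold pt
    rw [show (ζ + 3 + α) * (Real.pi / 3) = A + B + Real.pi by rw [hA, hB]; ring, S5.H767.cis_add,
      S5.H767.cis_pi]
    ring
  have e2 : (ζ - θ) * (Real.pi / 3) = A - C := by rw [hA, hC]; ring
  rw [dist_eq_norm, e1, e2, Complex.sq_norm, Complex.normSq_apply]
  have r1 : ∀ t : ℝ, (cis t).re = Real.cos t := fun t => by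
    simp [cis, Complex.exp_ofReal_mul_I_re]
  have r2 : ∀ t : ℝ, (cis t).im = Real.sin t := fun t => by
    simp [cis, Complex.exp_ofReal_mul_I_im]
  simp only [Complex.sub_re, Complex.sub_im, r1, r2]
  unfold Fd
  have h1 := Real.cos_sq_add_sin_sq A
  have h2 := Real.cos_sq_add_sin_sq (A + B)
  have h3 := Real.cos_sq_add_sin_sq C
  have k1 : Real.cos A * Real.cos (A + B) + Real.sin A * Real.sin (A + B) = Real.cos B := by
    rw [← Real.cos_sub, show A - (A + B) = -B by ring, Real.cos_neg]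
  have k2 : Real.cos A * Real.cos C + Real.sin A * Real.sin C = Real.cos (A - C) := by
    rw [← Real.cos_sub]
  have k3 : Real.cos (A + B) * Real.cos C + Real.sin (A + B) * Real.sin C =
      Real.cos (A + B - C) := by
    rw [← Real.cos_sub]
  have k4 : Real.cos B = 1 - 2 * Real.sin (B / 2) ^ 2 := by
    have := Real.cos_two_mul (B / 2)
    have h5 := Real.cos_sq_add_sin_sq (B / 2)
    rw [show 2 * (B / 2) = B by ring] at this
    linarith
  have k5 : Real.cos (A + B - C) - Real.cos (A - C) =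
      -2 * Real.sin (A - C + B / 2) * Real.sin (B / 2) := by
    rw [Real.cos_sub_cos]
    congr 2
    · congr 1; ring
    · congr 1; ring
  nlinarith [h1, h2, h3, k1, k2, k3, k4, k5]

/-- the sign of the defect -/
theorem Fd_pos {σ β : ℝ} (hσ : σ = 1 ∨ σ = -1) (hb : 0 < σ * Real.sin β) :
    ∀ᶠ ε : ℝ in 𝓝[>] 0, 0 < Fd (-(σ * ε)) β := by
  have hc : Continuous fun ε : ℝ =>
      σ * (Real.sin (β + -(σ * ε) / 2) - Real.sin (-(σ * ε) / 2)) := by fun_prop
  have h0 : 0 < σ * (Real.sin (β + -(σ * 0) / 2) - Real.sin (-(σ * 0) / 2)) := by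
    simpa using hb
  have e1 : ∀ᶠ ε : ℝ in 𝓝[>] 0,
      0 < σ * (Real.sin (β + -(σ * ε) / 2) - Real.sin (-(σ * ε) / 2)) :=
    mem_nhdsWithin_of_mem_nhds (hc.continuousAt.eventually (Ioi_mem_nhds h0))
  filter_upwards [e1, Ioo_mem_nhdsGT (show (0 : ℝ) < 1 by norm_num)] with ε h1 h2
  have h3 : 0 < Real.sin (ε / 2) := Real.sin_pos_of_pos_of_lt_pi (by linarith [h2.1])
    (by linarith [h2.2, Real.pi_gt_three])
  have h4 : Real.sin (-(σ * ε) / 2) = -σ * Real.sin (ε / 2) := by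
    rcases hσ with rfl | rfl
    · rw [show -(1 * ε) / 2 = -(ε / 2) by ring, Real.sin_neg]; ring
    · rw [show -(-1 * ε) / 2 = ε / 2 by ring]; ring
  have h5 : Fd (-(σ * ε)) β = 4 * Real.sin (ε / 2) *
      (σ * (Real.sin (β + -(σ * ε) / 2) - Real.sin (-(σ * ε) / 2))) := by
    unfold Fd
    rw [h4]
    ring
  rw [h5]
  positivity

theorem Fd_neg {σ β : ℝ} (hσ : σ = 1 ∨ σ = -1) (hb : σ * Real.sin β < 0) :
    ∀ᶠ ε : ℝ in 𝓝[>] 0, Fd (-(σ * ε)) β < 0 := by
  have hc : Continuous fun ε : ℝ =>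
      σ * (Real.sin (β + -(σ * ε) / 2) - Real.sin (-(σ * ε) / 2)) := by fun_prop
  have h0 : σ * (Real.sin (β + -(σ * 0) / 2) - Real.sin (-(σ * 0) / 2)) < 0 := by
    simpa using hb
  have e1 : ∀ᶠ ε : ℝ in 𝓝[>] 0,
      σ * (Real.sin (β + -(σ * ε) / 2) - Real.sin (-(σ * ε) / 2)) < 0 :=
    mem_nhdsWithin_of_mem_nhds (hc.continuousAt.eventually (Iio_mem_nhds h0))
  filter_upwards [e1, Ioo_mem_nhdsGT (show (0 : ℝ) < 1 by norm_num)] with ε h1 h2
  have h3 : 0 < Real.sin (ε / 2) := Real.sin_pos_of_pos_of_lt_pi (by linarith [h2.1])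
    (by linarith [h2.2, Real.pi_gt_three])
  have h4 : Real.sin (-(σ * ε) / 2) = -σ * Real.sin (ε / 2) := by
    rcases hσ with rfl | rfl
    · rw [show -(1 * ε) / 2 = -(ε / 2) by ring, Real.sin_neg]; ring
    · rw [show -(-1 * ε) / 2 = ε / 2 by ring]; ring
  have h5 : Fd (-(σ * ε)) β = 4 * Real.sin (ε / 2) *
      (σ * (Real.sin (β + -(σ * ε) / 2) - Real.sin (-(σ * ε) / 2))) := by
    unfold Fd
    rw [h4]
    ring
  rw [h5]
  exact mul_neg_of_pos_of_neg (by positivity) h1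

/-- the parametrized form -/
theorem dist_ev_pos {p z : ℂ} {ζ θ σ : ℝ} (hσ : σ = 1 ∨ σ = -1) (hz : z = pt p ζ)
    (hb : 0 < σ * Real.sin ((ζ - θ) * (Real.pi / 3))) :
    ∀ᶠ ε : ℝ in 𝓝[>] 0, 1 < dist (pt z (ζ + 3 + -(σ * ε))) (pt p θ) := by
  have h1 := Fd_pos hσ hb
  have hpi := Real.pi_pos
  have h2 : Tendsto (fun ε : ℝ => ε * (Real.pi / 3)) (𝓝[>] 0) (𝓝[>] 0) := by
    refine tendsto_nhdsWithin_of_tendsto_nhds_of_eventually_within _ ?_ ?_
    · have hc : Continuous fun ε : ℝ => ε * (Real.pi / 3) := by fun_prop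
      have := hc.tendsto 0
      rw [zero_mul] at this
      exact this.mono_left nhdsWithin_le_nhds
    · filter_upwards [self_mem_nhdsWithin] with ε hε
      have hε' : 0 < ε := hε
      exact mem_Ioi.2 (by positivity)
  filter_upwards [h2.eventually h1] with ε hε
  have h3 := dist_Fd (α := -(σ * ε)) (θ := θ) hz
  rw [show -(σ * ε) * (Real.pi / 3) = -(σ * (ε * (Real.pi / 3))) by ring] at h3
  by_contra hcon
  push Not at hcon
  have := pow_le_one₀ dist_nonneg hcon (n := 2)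
  linarith

theorem dist_ev_neg {p z : ℂ} {ζ θ σ : ℝ} (hσ : σ = 1 ∨ σ = -1) (hz : z = pt p ζ)
    (hb : σ * Real.sin ((ζ - θ) * (Real.pi / 3)) < 0) :
    ∀ᶠ ε : ℝ in 𝓝[>] 0, dist (pt z (ζ + 3 + -(σ * ε))) (pt p θ) < 1 := by
  have h1 := Fd_neg hσ hb
  have hpi := Real.pi_pos
  have h2 : Tendsto (fun ε : ℝ => ε * (Real.pi / 3)) (𝓝[>] 0) (𝓝[>] 0) := by
    refine tendsto_nhdsWithin_of_tendsto_nhds_of_eventually_within _ ?_ ?_
    · have hc : Continuous fun ε : ℝ => ε * (Real.pi / 3) := by fun_prop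
      have := hc.tendsto 0
      rw [zero_mul] at this
      exact this.mono_left nhdsWithin_le_nhds
    · filter_upwards [self_mem_nhdsWithin] with ε hε
      have hε' : 0 < ε := hε
      exact mem_Ioi.2 (by positivity)
  filter_upwards [h2.eventually h1] with ε hε
  have h3 := dist_Fd (α := -(σ * ε)) (θ := θ) hz
  rw [show -(σ * ε) * (Real.pi / 3) = -(σ * (ε * (Real.pi / 3))) by ring] at h3
  by_contra hcon
  push Not at hcon
  have := one_le_pow₀ hcon (n := 2)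
  linarith

/-! ### the arc of a vertex from a given end -/

theorem pt_shift553 {c : ℂ} {r r' s : ℝ} (h : pt c r = pt c r') : pt c (r + s) = pt c (r' + s) := by
  unfold pt at *
  rw [add_mul, add_mul, S5.H767.cis_add, S5.H767.cis_add, add_left_cancel h]

theorem arcEndI553 (H : QI0 T Inv V a b m n e f V1 V2) {r : ℝ} (hr : V1 = pt V r) :
    ∃ σ ℓ : ℝ, (σ = 1 ∨ σ = -1) ∧ 0 < ℓ ∧ ℓ ≤ 1 ∧ V2 = pt V (r + -(σ * ℓ)) ∧
      ∀ ε, 0 < ε → ε < ℓ → T (pt V (r + -(σ * ε))) = {a, b} := by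
  obtain ⟨s, t, h1, h2, h3, h4, -⟩ := H.arc
  rcases h3 with ⟨h3, h5⟩ | ⟨h3, h5⟩
  · rw [hr] at h3
    refine ⟨1, t - s, Or.inl rfl, by linarith, by linarith, ?_, fun ε e1 e2 => ?_⟩
    · rw [pt_shift553 h3, h5]; congr 1; ring
    · rw [pt_shift553 h3]
      exact h4 _ ⟨by linarith, by linarith⟩
  · rw [hr] at h3
    refine ⟨-1, t - s, Or.inr rfl, by linarith, by linarith, ?_, fun ε e1 e2 => ?_⟩
    · rw [pt_shift553 h3, h5]; congr 1; ring
    · rw [pt_shift553 h3]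
      exact h4 _ ⟨by linarith, by linarith⟩

/-- the inner colour of the arc at its end, from the side of the end -/
theorem sideI553 (h : Irr U T) (H : QI T Inv V a b m n e f V1 V2) {a' b' b1 : Fin 6}
    (hz : DPt T V1 a a' b' b1) (hb : b' = b) : ∀ᶠ x in 𝓝 V, a ∈ T x → dist x V1 ≤ 1 := by
  subst hb
  obtain ⟨s, t, h1, h2, h3, h4, -⟩ := H.toQI0.arc
  have hV : dist V V1 = 1 := by rw [dist_comm]; exact H.toQI0.dist1
  rcases h3 with ⟨h3, h5⟩ | ⟨h3, h5⟩
  · exact (H383.vertex_sides h H.dpt hz hV (Or.inr rfl) (H383.arc_side h1 h4 h3 h5).1 H.inn).1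
  · exact (H383.vertex_sides h H.dpt hz hV (Or.inl rfl) (H383.arc_side h1 h4 h5 h3).2 H.inn).1

/-- the third vertices of a unit triangle -/
theorem third553 {p x : ℂ} {ζ : ℝ} (hx : dist x p = 1) (h1 : dist x (pt p ζ) = 1) :
    ∃ κ : ℝ, (κ = 1 ∨ κ = -1) ∧ x = pt p (ζ + κ) := by
  have ht := S5.H767.pt_one p ζ
  have ht' : pt p (ζ + -1) = p + cis (ζ * (Real.pi / 3)) * (⟨1 / 2, -(√3 / 2)⟩ : ℂ) := by
    unfold pt
    rw [show (ζ + -1) * (Real.pi / 3) = ζ * (Real.pi / 3) + -(Real.pi / 3) by ring,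
      S5.H767.cis_add, S5.H767.cis_neg_third]
  set w := cis (ζ * (Real.pi / 3)) with hw
  have hwn : ‖w‖ = 1 := norm_cis _
  have hw0 : w ≠ 0 := fun h0 => by rw [h0, norm_zero] at hwn; exact zero_ne_one hwn
  obtain ⟨q, hq⟩ : ∃ q : ℂ, x = p + w * q := ⟨(x - p) / w, by field_simp; ring⟩
  have n1 : ‖q‖ = 1 := by
    rw [dist_eq_norm, hq, add_sub_cancel_left, norm_mul, hwn, one_mul] at hx
    exact hx
  have n2 : ‖q - 1‖ = 1 := by
    rw [dist_eq_norm, hq, show p + w * q - pt p ζ = w * (q - 1) by unfold pt; rw [hw]; ring,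
      norm_mul, hwn, one_mul] at h1
    exact h1
  have s1 : q.re * q.re + q.im * q.im = 1 := by
    rw [← Complex.normSq_apply, ← Complex.sq_norm, n1]; norm_num
  have s2 : (q.re - 1) * (q.re - 1) + q.im * q.im = 1 := by
    have h3 : Complex.normSq (q - 1) = 1 := by rw [← Complex.sq_norm, n2]; norm_num
    rw [Complex.normSq_apply] at h3
    simpa using h3
  have s3 : q.re = 1 / 2 := by nlinarith
  have s5 : √3 * √3 = 3 := Real.mul_self_sqrt (by norm_num)
  have s4 : (q.im - √3 / 2) * (q.im + √3 / 2) = 0 := by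
    rw [s3] at s1
    nlinarith
  rcases mul_eq_zero.1 s4 with h5 | h5
  · refine ⟨1, Or.inl rfl, ?_⟩
    rw [ht, hq]
    congr 2
    apply Complex.ext
    · exact s3
    · simpa using sub_eq_zero.1 h5
  · refine ⟨-1, Or.inr rfl, ?_⟩
    rw [ht', hq]
    congr 2
    apply Complex.ext
    · exact s3
    · simp only
      linarith

theorem pt_back553 {p z : ℂ} {ζ : ℝ} (hz : z = pt p ζ) : p = pt z (ζ + 3) := by
  subst hz
  unfold pt
  rw [show (ζ + 3) * (Real.pi / 3) = ζ * (Real.pi / 3) + Real.pi by ring, S5.H767.cis_add,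
    S5.H767.cis_pi]
  ring

theorem arc_tend553 (c : ℂ) (r σ : ℝ) :
    Tendsto (fun ε : ℝ => pt c (r + -(σ * ε))) (𝓝[>] 0) (𝓝 (pt c r)) := by
  have hc : Continuous fun ε : ℝ => pt c (r + -(σ * ε)) := (continuous_pt c).comp (by fun_prop)
  have h1 := hc.tendsto 0
  simp only [mul_zero, neg_zero, add_zero] at h1
  exact h1.mono_left nhdsWithin_le_nhds

theorem exists_pt553 {c y : ℂ} (hy : dist y c = 1) : ∃ ζ : ℝ, y = pt c ζ := by
  have hpi := Real.pi_pos
  refine ⟨Complex.arg (y - c) * (3 / Real.pi), ?_⟩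
  have h1 := Complex.norm_mul_exp_arg_mul_I (y - c)
  rw [← dist_eq_norm, hy, Complex.ofReal_one, one_mul] at h1
  unfold pt cis
  rw [show Complex.arg (y - c) * (3 / Real.pi) * (Real.pi / 3) = Complex.arg (y - c) by
    field_simp, h1]
  ring

/-- **The inner colour of a link is not a colour of the third vertex of its unit triangle.** -/
theorem StW2.inner_out (W : StW2 T fg) (h : Irr U T) (H : QI T NoI z a b m n e f V1 V2)
    (hx : dist x z = 1) (hx1 : dist x V1 = 1) (ha : a ∈ T x) : False := by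
  obtain ⟨g, e1, f1, W1, H1, hgn⟩ := W.stay2 H
  obtain ⟨g2, e2, f2, W2, H2, -⟩ := W.stay2 H1
  have hzV : dist z V1 = 1 := by rw [dist_comm]; exact H.toQI0.dist1
  obtain ⟨ζ, hζ⟩ := exists_pt553 hzV
  obtain ⟨σ', ℓ, hσ', hℓ, hℓ1, hW1, -⟩ := arcEndI553 H1.mirror.toQI0 hζ
  have hpi := Real.pi_pos
  have hℓ2 : ℓ < 1 := by
    refine lt_of_le_of_ne hℓ1 fun h1 => ?_
    have h2 := W.lt60 h H1
    rw [h1] at hW1
    have h3 : dist W1 z = 1 := by
      rw [hW1, hζ]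
      rcases hσ' with rfl | rfl
      · have := S5.H767.dist_pt_one V1 (ζ + -(1 * 1))
        rw [show ζ + -(1 * 1) + 1 = ζ by ring] at this
        rw [← hζ]
        rw [← hζ] at this
        exact this
      · have := S5.H767.dist_pt_one V1 ζ
        rw [dist_comm] at this
        rw [show ζ + -(-1 * 1) = ζ + 1 by ring]
        exact this
    linarith
  have hp1 := pt_back553 hζ
  have hp2 := pt_back553 hW1
  obtain ⟨σ1, ℓ1, hσ1, hl1, -, -, ex1⟩ := arcEndI553 H.toQI0 hp1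
  obtain ⟨σ2, ℓ2, hσ2, hl2, -, -, ex2⟩ := arcEndI553 H2.mirror.toQI0 hp2
  have sd1 := sideI553 h H1 H2.dpt.swap34 rfl
  have sd2 := sideI553 h H1.mirror H.dpt rfl
  have t1 := arc_tend553 z (ζ + 3) σ1
  rw [← hp1] at t1
  have t2 := arc_tend553 W1 (ζ + -(σ' * ℓ) + 3) σ2
  rw [← hp2] at t2
  have q1a : ∀ᶠ ε : ℝ in 𝓝[>] 0, T (pt z (ζ + 3 + -(σ1 * ε))) = {a, b} := by
    filter_upwards [Ioo_mem_nhdsGT hl1] with ε hε
    exact ex1 ε hε.1 hε.2
  have q2a : ∀ᶠ ε : ℝ in 𝓝[>] 0, T (pt W1 (ζ + -(σ' * ℓ) + 3 + -(σ2 * ε))) = {a, g} := by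
    filter_upwards [Ioo_mem_nhdsGT hl2] with ε hε
    exact ex2 ε hε.1 hε.2
  have s1 : σ1 * Real.sin ((ζ - (ζ + -(σ' * ℓ))) * (Real.pi / 3)) ≤ 0 := by
    by_contra hcon
    push Not at hcon
    obtain ⟨ε, h1, h2, h3⟩ := ((dist_ev_pos hσ1 hζ hcon).and ((t1.eventually sd1).and q1a)).exists
    have h4 := h2 (by rw [h3]; simp)
    rw [← hW1] at h1
    linarith
  have s2 : σ2 * Real.sin ((ζ + -(σ' * ℓ) - ζ) * (Real.pi / 3)) ≤ 0 := by
    by_contra hcon
    push Not at hcon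
    obtain ⟨ε, h1, h2, h3⟩ := ((dist_ev_pos hσ2 hW1 hcon).and ((t2.eventually sd2).and q2a)).exists
    have h4 := h2 (by rw [h3]; simp)
    rw [← hζ] at h1
    linarith
  have hsin : 0 < Real.sin (ℓ * (Real.pi / 3)) :=
    Real.sin_pos_of_pos_of_lt_pi (by positivity) (by nlinarith)
  have k1 : σ1 = -σ' := by
    rw [show (ζ - (ζ + -(σ' * ℓ))) * (Real.pi / 3) = σ' * (ℓ * (Real.pi / 3)) by ring] at s1
    rcases hσ' with rfl | rfl <;> rcases hσ1 with rfl | rfl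
    · rw [one_mul, one_mul] at s1; linarith
    · rfl
    · norm_num
    · rw [neg_one_mul (ℓ * (Real.pi / 3)), Real.sin_neg] at s1; linarith
  have k2 : σ2 = σ' := by
    rw [show (ζ + -(σ' * ℓ) - ζ) * (Real.pi / 3) = -(σ' * (ℓ * (Real.pi / 3))) by ring] at s2
    rcases hσ' with rfl | rfl <;> rcases hσ2 with rfl | rfl
    · rfl
    · rw [one_mul (ℓ * (Real.pi / 3)), Real.sin_neg] at s2; linarith
    · rw [neg_one_mul (ℓ * (Real.pi / 3)), neg_neg] at s2; linarith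
    · rfl
  obtain ⟨κ, hκ, hxκ⟩ := third553 (p := V1) (x := x) (ζ := ζ) hx1 (by rw [← hζ]; exact hx)
  have p1 : 0 < Real.sin (Real.pi / 3) :=
    Real.sin_pos_of_pos_of_lt_pi (by positivity) (by linarith)
  have p2 : 0 < Real.sin ((ℓ + 1) * (Real.pi / 3)) :=
    Real.sin_pos_of_pos_of_lt_pi (by positivity) (by nlinarith)
  have p3 : 0 < Real.sin ((1 - ℓ) * (Real.pi / 3)) :=
    Real.sin_pos_of_pos_of_lt_pi (mul_pos (by linarith) (by positivity)) (by nlinarith)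
  -- the connected set
  have key : ∀ ε1 ε2 : ℝ, 0 < ε1 → ε1 < ℓ1 → 0 < ε2 → ε2 < ℓ2 → ∃ K : Set ℂ, IsPreconnected K ∧
      (∀ w ∈ K, a ∈ Pal U w) ∧ pt z (ζ + 3 + -(σ1 * ε1)) ∈ K ∧
      pt W1 (ζ + -(σ' * ℓ) + 3 + -(σ2 * ε2)) ∈ K := by
    intro ε1 ε2 h1 h2 h3 h4
    have ha1 : a ∈ T V1 := by rw [H1.pal]; simp
    refine ⟨(fun t : ℝ => pt z (ζ + 3 + -(σ1 * t))) '' Icc 0 ε1 ∪
      (fun t : ℝ => pt W1 (ζ + -(σ' * ℓ) + 3 + -(σ2 * t))) '' Icc 0 ε2, ?_, ?_, ?_, ?_⟩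
    · refine IsPreconnected.union V1 ⟨0, ⟨le_rfl, h1.le⟩, ?_⟩ ⟨0, ⟨le_rfl, h3.le⟩, ?_⟩
        (isPreconnected_Icc.image _ ?_) (isPreconnected_Icc.image _ ?_)
      · simp only [mul_zero, neg_zero, add_zero]; exact hp1.symm
      · simp only [mul_zero, neg_zero, add_zero]; exact hp2.symm
      · exact ((continuous_pt z).comp (by fun_prop)).continuousOn
      · exact ((continuous_pt W1).comp (by fun_prop)).continuousOn
    · rintro w (⟨t, ht, rfl⟩ | ⟨t, ht, rfl⟩)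
      · refine h.sub _ ?_
        rcases eq_or_lt_of_le ht.1 with h5 | h5
        · subst h5
          simp only [mul_zero, neg_zero, add_zero]
          rw [← hp1]; exact ha1
        · simp only []
          rw [ex1 t h5 (by linarith [ht.2])]; simp
      · refine h.sub _ ?_
        rcases eq_or_lt_of_le ht.1 with h5 | h5
        · subst h5
          simp only [mul_zero, neg_zero, add_zero]
          rw [← hp2]; exact ha1
        · simp only []
          rw [ex2 t h5 (by linarith [ht.2])]; simp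
    · exact Or.inl ⟨ε1, ⟨h1.le, le_rfl⟩, rfl⟩
    · exact Or.inr ⟨ε2, ⟨h3.le, le_rfl⟩, rfl⟩
  have hax : a ∈ Pal U x := h.sub x ha
  have e1 := Ioo_mem_nhdsGT hl1
  have e2 := Ioo_mem_nhdsGT hl2
  have hsgn : (0 < σ1 * Real.sin ((ζ - (ζ + κ)) * (Real.pi / 3)) ∧
      σ2 * Real.sin ((ζ + -(σ' * ℓ) - (ζ + κ)) * (Real.pi / 3)) < 0) ∨
      (σ1 * Real.sin ((ζ - (ζ + κ)) * (Real.pi / 3)) < 0 ∧
      0 < σ2 * Real.sin ((ζ + -(σ' * ℓ) - (ζ + κ)) * (Real.pi / 3))) := by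
    rw [show (ζ - (ζ + κ)) * (Real.pi / 3) = -(κ * (Real.pi / 3)) by ring,
      show (ζ + -(σ' * ℓ) - (ζ + κ)) * (Real.pi / 3) = -((σ' * ℓ + κ) * (Real.pi / 3)) by ring,
      Real.sin_neg, Real.sin_neg, k1, k2]
    rcases hσ' with rfl | rfl <;> rcases hκ with rfl | rfl
    · left
      rw [one_mul, one_mul (ℓ)]
      constructor <;> linarith
    · right
      rw [show (1 * ℓ + -1) * (Real.pi / 3) = -((1 - ℓ) * (Real.pi / 3)) by ring,
        show (-1 : ℝ) * (Real.pi / 3) = -(Real.pi / 3) by ring, Real.sin_neg, Real.sin_neg]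
      constructor <;> linarith
    · right
      rw [show (-1 * ℓ + 1) * (Real.pi / 3) = (1 - ℓ) * (Real.pi / 3) by ring, one_mul]
      constructor <;> linarith
    · left
      rw [show (-1 * ℓ + -1) * (Real.pi / 3) = -((ℓ + 1) * (Real.pi / 3)) by ring,
        show (-1 : ℝ) * (Real.pi / 3) = -(Real.pi / 3) by ring, Real.sin_neg, Real.sin_neg]
      constructor <;> linarith
  rcases hsgn with ⟨g1, g2'⟩ | ⟨g1, g2'⟩
  · obtain ⟨ε1, h1, h2⟩ := ((dist_ev_pos hσ1 hζ g1).and e1).exists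
    obtain ⟨ε2, h3, h4⟩ := ((dist_ev_neg hσ2 hW1 g2').and e2).exists
    obtain ⟨K, c1, c2, c3, c4⟩ := key ε1 ε2 h2.1 h2.2 h4.1 h4.2
    rw [← hxκ] at h1 h3
    exact cross_far553 h c1 c2 hax c4 c3 h3 h1
  · obtain ⟨ε1, h1, h2⟩ := ((dist_ev_neg hσ1 hζ g1).and e1).exists
    obtain ⟨ε2, h3, h4⟩ := ((dist_ev_pos hσ2 hW1 g2').and e2).exists
    obtain ⟨K, c1, c2, c3, c4⟩ := key ε1 ε2 h2.1 h2.2 h4.1 h4.2
    rw [← hxκ] at h1 h3
    exact cross_far553 h c1 c2 hax c3 c4 h1 h3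

end Vale.Agent.P032.Six
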