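import Vale.Agent.P032.H780.ClW
import Vale.Agent.P032.H747.L1B
import Vale.Agent.P032.S5.H827.Edge
import Vale.Agent.P032.S5.H585.Exc

/-!
# P032, X4c: the fields of `PolA` over the frame `DSt`, part 1: agreement

`DSt.pin_nhd`, `DSt.one_pin` : at a point with at most three colours at most one pair is pinned (lies
in the apex pair of a point with four colours of the circle).
`DSt.agr553` : at every point outside the connecting arcs the states of two colours agree, or they
both agree with the state of a third colour (field `agr` of `PolA`).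
-/

open Set Filter Topology Metric

noncomputable section

namespace Vale.Agent.P032.Six

open Vale.Agent.P032.S5 Vale.Agent.P032.S5.Tab Vale.Agent.P032.Carr Vale.Agent.P032.S5.H767
  Vale.Agent.P032.H747

variable {U : Fin 6 → Set ℂ} {T : ℂ → Set (Fin 6)} {f : ℂ → Set (Fin 6)} {Z : Set ℂ} {c : ℂ}
  {R δ₀ : ℝ} {x z z' : ℂ} {i j k : Fin 6}

/-- `x` is in no closed arc of the apex pair of a two-pair point -/
def OffA (T : ℂ → Set (Fin 6)) (f : ℂ → Set (Fin 6)) (x : ℂ) : Prop :=
  ∀ z a b m n, DPt T z a b m n → T z \ f z = {a, b} → dist z x = 1 → x ∉ closure (Ex T z {a, b})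

namespace DSt

variable (D : DSt U T Z f c R δ₀)
include D

theorem two_ne (h4 : 4 ≤ (T z).ncard) (hC : T z \ f z = {i, j}) : i ≠ j := by
  rintro rfl
  have := D.card_ap h4
  rw [hC] at this
  simp at this

/-- a pinned pair near a point with at most three colours -/
theorem pin_nhd (hA : OffA T f x) (h3 : (T x).ncard ≤ 3) (hi : i ∈ T x) (hj : j ∈ T x)
    (hzx : dist z x = 1) (h4 : 4 ≤ (T z).ncard) (hC : T z \ f z = {i, j}) :
    ∀ᶠ w in 𝓝 x, i ∈ T w → j ∈ T w → dist w z = 1 ∧ T w = T x := by
  have hij : i ≠ j := D.two_ne h4 hC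
  have hxz : dist x z = 1 := by rw [dist_comm]; exact hzx
  rcases D.df.harm_or h4 with ⟨A, hH⟩ | ⟨a, b, c', d, hD⟩
  · have hf : f z = A := D.ch.harm z A hH
    rw [hf] at hC
    filter_upwards [hH.cd3 D.df.irr hxz h3 (by
      rw [hC]; exact insert_subset hi (singleton_subset_iff.2 hj))] with w hw hi' hj'
    exact hw (by rw [hC]; exact insert_subset hi' (singleton_subset_iff.2 hj'))
  · obtain ⟨m, n, hD'⟩ := dpt_of_ap D hD hC
    have hcl : x ∉ closure (Ex T z {i, j}) := hA z i j m n hD' hC hzx
    have hN : (closure (Ex T z {i, j}))ᶜ ∈ 𝓝 x := isClosed_closure.isOpen_compl.mem_nhds hcl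
    filter_upwards [H383.EV_near D.df.irr hD' hxz, eventually_mem_nhds_iff.2 hN, D.df.irr.nhd x]
      with w h1 h2 h5 hi' hj'
    have h6 : dist w z = 1 := (h1 hi' hj').1
    refine ⟨h6, ?_⟩
    have hne : T w ≠ {i, j} := by
      intro he
      have hsub : T w ⊆ T z := by
        rw [he, hD'.pal]
        rintro l (rfl | rfl) <;> simp
      obtain ⟨q, hqN, hq, hq2, hq3, -, -⟩ := D.df.irr.arc_of_sub h6 hsub h2
      have h7 : T q = {i, j} := by
        rcases D.df.irr.twoPairs hD' q hq hq2 (hq3.trans hsub) with h8 | h8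
        · exact h8
        · exfalso
          have h9 : m ∈ ({i, j} : Set (Fin 6)) := by
            rw [← he]; exact hq3 (by rw [h8]; simp)
          rcases h9 with h9 | h9
          · exact hD'.ac h9.symm
          · exact hD'.bc h9.symm
      rw [h7] at hq2
      exact hqN (subset_closure ⟨hq, hq2⟩)
    have h8 : ({i, j} : Set (Fin 6)) ⊂ T w :=
      LE.le.ssubset_of_ne (insert_subset hi' (singleton_subset_iff.2 hj')) hne.symm
    have h9 : 2 < (T w).ncard := by
      have := Set.ncard_lt_ncard h8 (Set.toFinite _)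
      rwa [Set.ncard_pair hij] at this
    exact Set.eq_of_subset_of_ncard_le h5 (by omega) (Set.toFinite _)

/-- at most one pinned pair -/
theorem one_pin (hA : OffA T f x) (h3 : (T x).ncard ≤ 3) (hjk : j ≠ k) (hT : T x ⊆ {i, j, k})
    (hi : i ∈ T x) (hj : j ∈ T x) (hk : k ∈ T x)
    (hzx : dist z x = 1) (h4 : 4 ≤ (T z).ncard) (hC : T z \ f z = {i, j})
    (hzx' : dist z' x = 1) (h4' : 4 ≤ (T z').ncard) (hC' : T z' \ f z' = {i, k}) : False := by
  have hij : i ≠ j := D.two_ne h4 hC
  have hik : i ≠ k := D.two_ne h4' hC'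
  have hxz : dist x z = 1 := by rw [dist_comm]; exact hzx
  have hxz' : dist x z' = 1 := by rw [dist_comm]; exact hzx'
  have hne : z ≠ z' := by
    rintro rfl
    have h1 : j ∈ ({i, k} : Set (Fin 6)) := by
      rw [← hC', hC]; exact mem_insert_of_mem _ rfl
    rcases h1 with h1 | h1
    · exact hij h1.symm
    · exact hjk h1
  have e1 := D.pin_nhd hA h3 hi hj hzx h4 hC
  have e2 := D.pin_nhd hA h3 hi hk hzx' h4' hC'
  have key : T x ⊆ {i} := by
    refine isolated D.df.irr hi ?_
    filter_upwards [e1, e2, D.df.irr.nhd x, two_circles hne hxz hxz'] with w h1 h2 h5 h6 hwx hiw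
    intro m hm
    by_contra hmi
    have hmi : m ≠ i := hmi
    have h7 : T w = T x := by
      rcases hT (h5 hm) with h7 | h7 | h7
      · exact absurd h7 hmi
      · exact (h1 hiw (h7 ▸ hm)).2
      · have h7 : m = k := h7
        exact (h2 hiw (h7 ▸ hm)).2
    refine hwx (h6 (h1 hiw ?_).1 (h2 hiw ?_).1)
    · rw [h7]; exact hj
    · rw [h7]; exact hk
  exact hij (key hj).symm

/-- **Field `agr`.** `x` is no two-pair point, in no closed arc of the apex pair of a two-pair point,
and if it has four colours then it is on no circle of a two-pair point with an apex pair in its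
palette. -/
theorem agr553 (hmin : MinF U T) (hx : dist x c ≤ R - 1) (hA : OffA T f x)
    (hB : ∀ a b m n, ¬ DPt T x a b m n)
    (hC4 : 4 ≤ (T x).ncard → ∀ z a b m n, DPt T z a b m n → T z \ f z = {a, b} → dist z x = 1 →
      a ∈ T x → b ∈ T x → False)
    (hi : i ∈ T x) (hj : j ∈ T x) (hij : i ≠ j) (hdg : ¬ Dg T x i j) :
    AgAt T Z f δ₀ x i j ∨ ∃ k ∈ T x, AgAt T Z f δ₀ x i k ∧ AgAt T Z f δ₀ x k j := by
  have hag : ∀ {i j : Fin 6}, Rg2 T f i j x → AgAt T Z f δ₀ x i j := fun h =>
    ⟨h.ne, fun d _ _ => h.agree D hx d⟩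
  by_cases hr : ∀ z, dist z x = 1 → 4 ≤ (T z).ncard → T z \ f z ≠ {i, j}
  · exact Or.inl (hag ⟨hij, hi, hj, hdg, hr⟩)
  push Not at hr
  obtain ⟨z, hzx, h4, hC⟩ := hr
  have hxz : dist x z = 1 := by rw [dist_comm]; exact hzx
  right
  by_cases h3 : (T x).ncard ≤ 3
  · -- a pinned three coloured point
    have hij2 : ({i, j} : Set (Fin 6)) ⊆ T x := insert_subset hi (singleton_subset_iff.2 hj)
    obtain ⟨k, hk, hki, hkj⟩ : ∃ k ∈ T x, k ≠ i ∧ k ≠ j := by
      by_contra hcon
      push Not at hcon
      have hTx : T x = {i, j} := by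
        refine Subset.antisymm (fun l hl => ?_) hij2
        by_cases hli : l = i
        · exact Or.inl hli
        · exact Or.inr (hcon l hl hli)
      rcases D.df.harm_or h4 with ⟨A, hH⟩ | ⟨a, b, c', d, hD⟩
      · have hf : f z = A := D.ch.harm z A hH
        rw [hf] at hC
        obtain ⟨e, he, hTe⟩ := hH.third hxz h3 (by rw [hC]; exact hij2)
        have h5 : e ∈ T x := by rw [hTe]; exact mem_insert _ _
        rw [hTx, ← hC] at h5
        exact he h5.1
      · obtain ⟨m, n, hD'⟩ := dpt_of_ap D hD hC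
        have h5 := D.pin_nhd hA h3 hi hj hzx h4 hC
        refine hA z i j m n hD' hC hzx ?_
        rw [mem_closure_iff_nhds]
        intro N hN
        have hsub : T x ⊆ T z := by
          rw [hTx, hD'.pal]
          rintro l (rfl | rfl) <;> simp
        obtain ⟨q, hqN, hq, hq2, hq3, -, -⟩ := D.df.irr.arc_of_sub hxz hsub hN
        refine ⟨q, hqN, hq, ?_⟩
        have h7 : T q = {i, j} := by
          rcases D.df.irr.twoPairs hD' q hq hq2 (hq3.trans hsub) with h8 | h8
          · exact h8
          · exfalso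
            have h9 : m ∈ ({i, j} : Set (Fin 6)) := by
              rw [← hTx]; exact hq3 (by rw [h8]; simp)
            rcases h9 with h9 | h9
            · exact hD'.ac h9.symm
            · exact hD'.bc h9.symm
        rwa [h7] at hq2
    have hTx : T x ⊆ {i, j, k} := by
      have h5 : ({i, j, k} : Set (Fin 6)) ⊆ T x :=
        insert_subset hi (insert_subset hj (singleton_subset_iff.2 hk))
      have h6 : ({i, j, k} : Set (Fin 6)).ncard = 3 :=
        Set.ncard_eq_three.2 ⟨i, j, k, hij, hki.symm, hkj.symm, rfl⟩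
      exact (Set.eq_of_subset_of_ncard_le h5 (by omega) (Set.toFinite _)).ge
    have nd3 : ∀ p q : Fin 6, ¬ Dgl T x p q := fun p q h => by
      have := h.card
      omega
    refine ⟨k, hk, hag ⟨hki.symm, hi, hk, nd3 _ _, fun z' h1 h2 h5 => ?_⟩,
      hag ⟨hkj, hk, hj, nd3 _ _, fun z' h1 h2 h5 => ?_⟩⟩
    · exact D.one_pin hA h3 hkj.symm hTx hi hj hk hzx h4 hC h1 h2 h5
    · refine D.one_pin (i := j) (j := i) (k := k) hA h3 hki.symm (by
        intro l hl
        have := hTx hl
        simp only [mem_insert_iff, mem_singleton_iff] at this ⊢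
        tauto) hj hi hk hzx h4 (by rw [hC, Set.pair_comm]) h1 h2 (by rw [h5, Set.pair_comm])
  · -- a harmless point
    push Not at h3
    have hx4 : 4 ≤ (T x).ncard := h3
    obtain ⟨B, hHx⟩ : ∃ B, Six.Harm T x B := by
      rcases D.df.harm_or hx4 with h | ⟨a, b, c', d, h⟩
      · exact h
      · exact absurd h (hB a b c' d)
    obtain ⟨A, hHz⟩ : ∃ A, Six.Harm T z A := by
      rcases D.df.harm_or h4 with h | ⟨a, b, c', d, h⟩
      · exact h
      · obtain ⟨m, n, hD'⟩ := dpt_of_ap D h hC
        exact absurd hj fun hj => hC4 hx4 z i j m n hD' hC hzx hi hj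
    have hfz : f z = A := D.ch.harm z A hHz
    have hfx : f x = B := D.ch.harm x B hHx
    have hCA : T z \ A = {i, j} := by rw [← hfz]; exact hC
    have hsub : T z \ A ⊆ T x := by
      rw [hCA]; exact insert_subset hi (singleton_subset_iff.2 hj)
    rcases hHz.unit_pair D.df.irr hmin hHx hxz hsub with h1 | ⟨h1, -⟩
    · exact absurd (Or.inl (by rw [← hCA, ← h1]; exact hHx)) hdg
    · -- a star pair
      obtain ⟨b1, b2, hb12, hB2⟩ := Set.ncard_eq_two.1 hHx.cardA
      have hb1 : b1 ∈ T x := hHx.sub (by rw [hB2]; simp)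
      have hiB : i ∉ B := by
        have : i ∈ T x \ B := by rw [← h1, hCA]; simp
        exact this.2
      have hjB : j ∉ B := by
        have : j ∈ T x \ B := by rw [← h1, hCA]; simp
        exact this.2
      have hb1B : b1 ∈ B := by rw [hB2]; simp
      have hne1 : i ≠ b1 := fun h => hiB (h ▸ hb1B)
      have hne2 : j ≠ b1 := fun h => hjB (h ▸ hb1B)
      have nd4 : ∀ p, p ∉ B → ¬ Dgl T x p b1 ∧ ¬ Dgl T x b1 p := by
        intro p hp
        constructor
        · rintro (h | ⟨m, n, h⟩)
          · have := hHx.unique h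
            exact hp (by rw [← this]; simp)
          · exact hB _ _ _ _ h
        · rintro (h | ⟨m, n, h⟩)
          · have := hHx.unique h
            exact hp (by rw [← this]; simp)
          · exact hB _ _ _ _ h
      have ap : ∀ p, p ∈ T x → p ∉ B → ∀ z', dist z' x = 1 → 4 ≤ (T z').ncard →
          T z' \ f z' ≠ {p, b1} := by
        intro p hp hpB z' g1 g2 g3
        have hpb : p ≠ b1 := fun h => hpB (h ▸ hb1B)
        rcases D.df.harm_or g2 with ⟨A', hH'⟩ | ⟨a, b, c', d, h⟩
        · have hf' : f z' = A' := D.ch.harm z' A' hH'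
          rw [hf'] at g3
          rcases hH'.unit_pair D.df.irr hmin hHx (by rw [dist_comm]; exact g1) (by
            rw [g3]; exact insert_subset hp (singleton_subset_iff.2 hb1)) with g4 | ⟨g4, -⟩
          · exact hpB (by rw [g4, g3]; simp)
          · have : b1 ∈ T x \ B := by rw [← g4, g3]; simp
            exact this.2 hb1B
        · obtain ⟨m, n, hD'⟩ := dpt_of_ap D h g3
          exact hC4 hx4 z' p b1 m n hD' g3 g1 hp hb1
      refine ⟨b1, hb1, hag ⟨hne1, hi, hb1, (nd4 i hiB).1, ap i hi hiB⟩,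
        hag ⟨hne2.symm, hb1, hj, (nd4 j hjB).2, fun z' g1 g2 g3 => ?_⟩⟩
      exact ap j hj hjB z' g1 g2 (by rw [g3, Set.pair_comm])

end DSt

end Vale.Agent.P032.Six
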