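import Vale.Agent.P032.H553.ClR1
import Vale.Agent.P032.H758.GaugeI

/-!
# P032, X4c: the world `StW` from `QIW`, the gauge and the all-STAY chains

`StW.of` : a world `QIW` without invisible points whose chains are all-STAY, with the gauge of H758,
is a world `StW` (the input of `DSt.agr_W`, `DSt.r1_553`).
-/

open Set Filter Topology Metric

noncomputable section

namespace Vale.Agent.P032.Six

open Vale.Agent.P032.S5 Vale.Agent.P032.Carr Vale.Agent.P032.H961

variable {T : ℂ → Set (Fin 6)} {fg : ℂ → Set (Fin 6)}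

/-- all links are STAY links -/
theorem stay553 {Inv : ℂ → ℂ → Prop} (hw : QIW T Inv)
    (hS : ∀ V l name, ChI nxR802 T Inv V l name → ∀ j, l j = 2) {V V1 V2 : ℂ}
    {a b m n e f : Fin 6} (H : QI T Inv V a b m n e f V1 V2) :
    ∃ (g e' f' : Fin 6) (W : ℂ), QI T Inv V1 a m g b e' f' W V := by
  obtain ⟨Vs, l, name, hC, h0, h1, -, hn⟩ := exists_chIA hw (V₀ := V) (V1 := V1) (V2 := V2)
    (ν := ![a, b, m, n, e, f]) H
  obtain ⟨s, hR⟩ := hC.rel802
  have h2 : swl802 (s 0) (l 0) = 2 := hS _ _ _ hR 0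
  have h3 := hR.qf 1
  have hnm : ∀ r, name 1 (sw802 (s 1) r) = name 0 (sw802 (s 0) (nxR802 2 r)) := by
    intro r
    have h4 := hR.nm 0 r
    simp only [zero_add] at h4
    rw [h2] at h4
    exact h4
  simp only [hnm, hn] at h3
  rw [show (1 : ℤ) - 1 = 0 by norm_num, h0, h1] at h3
  rcases hs : s 0 with _ | _
  · rw [hs] at h3
    exact ⟨f, n, e, _, h3⟩
  · rw [hs] at h3
    exact ⟨e, n, f, _, h3⟩

theorem StW.of (hw : QIW T NoI) (G : GaugeI758 T NoI fg)
    (hS : ∀ V l name, ChI nxR802 T NoI V l name → ∀ j, l j = 2) : StW T fg :=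
  ⟨hw, G.qi, stay553 hw hS⟩

end Vale.Agent.P032.Six
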