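import Vale.Agent.P032.S5.H11.Tab

/-!
# P032, X4c: the six-vertex projective planes as constant states (finite part)

`RPN N` : `N` is a mod 2 cycle of the 2-skeleton of the 5-simplex which contains exactly one of any
two complementary triples, and every pair is in exactly two triples of `N` (the 12 six-vertex
projective planes; without the last condition there are 20 more cycles).

`RPN.prop` : one sector state determines the others.  `RPN.eq_of_link`.  `RPN.gauge` : constant
labels whose coboundary is `N`, with prescribed values on `{0,1,2}`.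
-/

namespace Vale.Agent.P032.Six

open Finset Vale.Agent.P032.S5.Tab

/-- the six-vertex projective planes -/
structure RPN (N : Ch) : Prop where
  cyc : ∀ i j a b c d : Fin 6, [i, j, a, b, c, d].Nodup →
    N {i, j, a} + N {i, j, b} + N {i, j, c} + N {i, j, d} = 0
  one : ∀ i j k a b c : Fin 6, [i, j, k, a, b, c].Nodup → N {i, j, k} + N {a, b, c} = 1
  deg : ∀ i j a b c d : Fin 6, [i, j, a, b, c, d].Nodup →
    ¬ (N {i, j, b} = N {i, j, a} ∧ N {i, j, c} = N {i, j, a} ∧ N {i, j, d} = N {i, j, a})

private lemma vA : ∀ n a b c l1 l2 l3 : ZMod 2, n + a + b + c = 0 →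
    ¬ (a = n ∧ b = n ∧ c = n) → (l1 = 1 → a = 1) → (l2 = 1 → b = 1) → (l3 = 1 → c = 1) →
    n + l1 + l2 + l3 = 0 → n = 1 → l1 = a ∧ l2 = b ∧ l3 = c := by decide

private lemma vB : ∀ n a b c l1 l2 l3 : ZMod 2, n + a + b + c = 0 →
    n + l1 + l2 + l3 = 0 → l2 = b → l3 = c → l1 = a := by decide

private lemma vC : ∀ n1 n2 n3 n4 : ZMod 2, n1 + n2 + n3 + n4 = 0 →
    ¬ (n2 = n1 ∧ n3 = n1 ∧ n4 = n1) → n1 ≠ 1 → n2 ≠ 1 → n3 = 1 ∧ n4 = 1 := by
  intro n1 n2 n3 n4 h1 h2 h3 h4
  have k : ∀ x : ZMod 2, x ≠ 1 → x = 0 := by decide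
  have h5 := k _ h3
  have h6 := k _ h4
  subst h5
  subst h6
  revert n3 n4
  decide

namespace RPN

variable {N N' : Ch}

/-- the sum over the four other colours -/
private lemma sum4 {g : Fin 6 → ZMod 2} {i j a b c d : Fin 6} (hn : [i, j, a, b, c, d].Nodup) :
    ∑ x, g x = g i + g j + g a + g b + g c + g d := by
  have h1 : ({i, j, a, b, c, d} : Finset (Fin 6)) = univ := by
    apply eq_of_subset_of_card_le (subset_univ _)
    have := List.toFinset_card_of_nodup hn
    have h2 : ([i, j, a, b, c, d].toFinset) = ({i, j, a, b, c, d} : Finset (Fin 6)) := by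
      simp
    rw [← h2, this]
    simp
  simp only [List.nodup_cons, List.mem_cons, List.not_mem_nil, or_false, not_or,
    List.nodup_nil, and_true, not_false_eq_true] at hn
  obtain ⟨⟨h01, h02, h03, h04, h05⟩, ⟨h12, h13, h14, h15⟩, ⟨h23, h24, h25⟩, ⟨h34, h35⟩, h45⟩ := hn
  rw [← h1, sum_insert (by simp [*]), sum_insert (by simp [*]), sum_insert (by simp [*]),
    sum_insert (by simp [*]), sum_insert (by simp [*]), sum_singleton]
  ring

/-- the six orders of three colours -/
private lemma rot (N : Ch) (a b c : Fin 6) : N {a, b, c} = N {b, a, c} ∧ N {a, b, c} = N {a, c, b} ∧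
    N {a, b, c} = N {b, c, a} ∧ N {a, b, c} = N {c, a, b} ∧ N {a, b, c} = N {c, b, a} := by
  refine ⟨?_, ?_, ?_, ?_, ?_⟩ <;> congr 1 <;> ext x <;>
    simp only [mem_insert, mem_singleton] <;> tauto

/-- **Propagation.**  The sector state `L` of the colour `j` is even, agrees with `N` on the
border `i | j` and has no face whose complement is in `N` at `i`: it is the link of `N` at `j`. -/
theorem prop (h : RPN N) {i j : Fin 6} {L : Fin 6 → Fin 6 → ZMod 2} (hij : i ≠ j)
    (symm : ∀ a b, L a b = L b a) (diag : ∀ a, L a a = 0) (self : ∀ b, L j b = 0)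
    (euler : ∀ b, b ≠ j → ∑ c, L b c = 0) (agree : ∀ b, b ≠ i → b ≠ j → L i b = N {i, j, b})
    (comp : ∀ a b c d, [i, j, a, b, c, d].Nodup → L a b = 1 → N {i, c, d} = 0) :
    ∀ a b, a ≠ b → a ≠ j → b ≠ j → L a b = N {j, a, b} := by
  -- the Euler relation at `a` in the names of the four other colours
  have eul : ∀ a b c d, [i, j, a, b, c, d].Nodup → N {i, j, a} + L a b + L a c + L a d = 0 := by
    intro a b c d hn
    have hn' := hn
    simp only [List.nodup_cons, List.mem_cons, List.not_mem_nil, or_false, not_or,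
      List.nodup_nil, and_true, not_false_eq_true] at hn'
    have h1 := euler a (by tauto)
    rw [sum4 hn, symm a j, self, diag, symm a i, agree a (by tauto) (by tauto)] at h1
    linear_combination h1
  have le : ∀ a b c d, [i, j, a, b, c, d].Nodup → L a b = 1 → N {j, a, b} = 1 := by
    intro a b c d hn hL
    have h1 := comp a b c d hn hL
    have h2 := h.one j a b i c d (by
      simp only [List.nodup_cons, List.mem_cons, List.not_mem_nil, or_false, not_or,
        List.nodup_nil, and_true, not_false_eq_true] at hn ⊢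
      tauto)
    rw [h1, add_zero] at h2
    exact h2
  have cy : ∀ a b c d, [i, j, a, b, c, d].Nodup →
      N {i, j, a} + N {j, a, b} + N {j, a, c} + N {j, a, d} = 0 := by
    intro a b c d hn
    have h2 := h.cyc j a i b c d (by
      simp only [List.nodup_cons, List.mem_cons, List.not_mem_nil, or_false, not_or,
        List.nodup_nil, and_true, not_false_eq_true] at hn ⊢
      tauto)
    rw [(rot N j a i).2.2.2.1] at h2
    exact h2
  have dg : ∀ a b c d, [i, j, a, b, c, d].Nodup → ¬ (N {j, a, b} = N {i, j, a} ∧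
      N {j, a, c} = N {i, j, a} ∧ N {j, a, d} = N {i, j, a}) := by
    intro a b c d hn
    have h2 := h.deg j a i b c d (by
      simp only [List.nodup_cons, List.mem_cons, List.not_mem_nil, or_false, not_or,
        List.nodup_nil, and_true, not_false_eq_true] at hn ⊢
      tauto)
    rw [(rot N j a i).2.2.2.1] at h2
    exact h2
  have A : ∀ a b c d, [i, j, a, b, c, d].Nodup → N {i, j, a} = 1 → L a b = N {j, a, b} := by
    intro a b c d hn h1
    have p1 : [i, j, a, c, b, d].Nodup := by
      simp only [List.nodup_cons, List.mem_cons, List.not_mem_nil, or_false, not_or,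
        List.nodup_nil, and_true, not_false_eq_true] at hn ⊢
      tauto
    have p2 : [i, j, a, d, b, c].Nodup := by
      simp only [List.nodup_cons, List.mem_cons, List.not_mem_nil, or_false, not_or,
        List.nodup_nil, and_true, not_false_eq_true] at hn ⊢
      tauto
    exact (vA _ _ _ _ _ _ _ (cy a b c d hn) (dg a b c d hn) (le a b c d hn) (le a c b d p1)
      (le a d b c p2) (eul a b c d hn) h1).1
  have key : ∀ a b c d, [i, j, a, b, c, d].Nodup → L a b = N {j, a, b} := by
    intro a b c d hn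
    have q1 : [i, j, b, a, c, d].Nodup := by
      simp only [List.nodup_cons, List.mem_cons, List.not_mem_nil, or_false, not_or,
        List.nodup_nil, and_true, not_false_eq_true] at hn ⊢
      tauto
    have q2 : [i, j, c, a, b, d].Nodup := by
      simp only [List.nodup_cons, List.mem_cons, List.not_mem_nil, or_false, not_or,
        List.nodup_nil, and_true, not_false_eq_true] at hn ⊢
      tauto
    have q3 : [i, j, d, a, b, c].Nodup := by
      simp only [List.nodup_cons, List.mem_cons, List.not_mem_nil, or_false, not_or,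
        List.nodup_nil, and_true, not_false_eq_true] at hn ⊢
      tauto
    by_cases ha : N {i, j, a} = 1
    · exact A a b c d hn ha
    by_cases hb : N {i, j, b} = 1
    · rw [symm a b, A b a c d q1 hb, (rot N j a b).2.1]
    · obtain ⟨hc, hd⟩ := vC _ _ _ _ (h.cyc i j a b c d hn) (h.deg i j a b c d hn) ha hb
      refine vB _ _ _ _ _ _ _ (cy a b c d hn) (eul a b c d hn) ?_ ?_
      · rw [symm a c, A c a b d q2 hc, (rot N j a c).2.1]
      · rw [symm a d, A d a b c q3 hd, (rot N j a d).2.1]
  intro a b hab haj hbj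
  by_cases hai : a = i
  · subst hai
    rw [agree b (Ne.symm hab) hbj, (rot N a j b).1]
  by_cases hbi : b = i
  · subst hbi
    rw [symm, agree a hab haj, (rot N b j a).2.2.1]
  · obtain ⟨c, d, hn⟩ : ∃ c d, [i, j, a, b, c, d].Nodup := by
      clear key A dg cy le eul comp agree euler self diag symm h
      revert i j a b
      decide
    exact key a b c d hn

/-- one common link -/
theorem eq_of_link (h : RPN N) (h' : RPN N') {i : Fin 6}
    (hl : ∀ a b, a ≠ b → a ≠ i → b ≠ i → N {i, a, b} = N' {i, a, b}) {a b c : Fin 6}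
    (hab : a ≠ b) (hac : a ≠ c) (hbc : b ≠ c) : N {a, b, c} = N' {a, b, c} := by
  by_cases ha : a = i
  · subst ha; exact hl b c hbc hab.symm hac.symm
  by_cases hb : b = i
  · subst hb
    rw [(rot N a b c).1, (rot N' a b c).1]
    exact hl a c hac hab hbc.symm
  by_cases hc : c = i
  · subst hc
    rw [(rot N a b c).2.2.2.1, (rot N' a b c).2.2.2.1]
    exact hl a b hab hac hbc
  · obtain ⟨d, e, hn⟩ : ∃ d e, [a, b, c, i, d, e].Nodup := by
      clear hl h h'
      revert a b c i
      decide
    have h1 := h.one a b c i d e hn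
    have h2 := h'.one a b c i d e hn
    have h3 := hl d e (by simp at hn; tauto) (by simp at hn; tauto) (by simp at hn; tauto)
    rw [h3] at h1
    linear_combination h1 - h2

/-- the winding relation at a three-coloured point -/
theorem wind (h : RPN N) {a b c d e f : Fin 6} (hn : [a, b, c, d, e, f].Nodup)
    (hw : N {a, d, e} + N {b, d, e} + N {c, d, e} = 1) : N {a, b, c} = 0 ∧ N {d, e, f} = 1 := by
  have h1 := h.cyc d e a b c f (by
    simp only [List.nodup_cons, List.mem_cons, List.not_mem_nil, or_false, not_or,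
      List.nodup_nil, and_true, not_false_eq_true] at hn ⊢
    tauto)
  rw [(rot N d e a).2.2.2.1, (rot N d e b).2.2.2.1, (rot N d e c).2.2.2.1] at h1
  have h2 := h.one a b c d e f hn
  have key : ∀ x y z w t : ZMod 2, x + y + z = 1 → x + y + z + w = 0 → t + w = 1 →
      t = 0 ∧ w = 1 := by decide
  exact key _ _ _ _ _ hw h1 h2

/-- the coboundary form: `N` is a two-graph -/
theorem two (h : RPN N) {a b c d e f : Fin 6} (hn : [a, b, c, d, e, f].Nodup) :
    N {a, b, c} + N {a, b, d} + N {a, c, d} + N {b, c, d} = 0 := by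
  have h1 := h.cyc e f a b c d (by
    simp only [List.nodup_cons, List.mem_cons, List.not_mem_nil, or_false, not_or,
      List.nodup_nil, and_true, not_false_eq_true] at hn ⊢
    tauto)
  have g : ∀ x y z u v w : Fin 6, [x, y, z, u, v, w].Nodup → N {x, y, z} + N {v, w, u} = 1 := by
    intro x y z u v w hn
    exact h.one x y z v w u (by
      simp only [List.nodup_cons, List.mem_cons, List.not_mem_nil, or_false, not_or,
        List.nodup_nil, and_true, not_false_eq_true] at hn ⊢
      tauto)
  have e1 := g a b c d e f hn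
  have e2 := g a b d c e f (by
    simp only [List.nodup_cons, List.mem_cons, List.not_mem_nil, or_false, not_or,
      List.nodup_nil, and_true, not_false_eq_true] at hn ⊢
    tauto)
  have e3 := g a c d b e f (by
    simp only [List.nodup_cons, List.mem_cons, List.not_mem_nil, or_false, not_or,
      List.nodup_nil, and_true, not_false_eq_true] at hn ⊢
    tauto)
  have e4 := g b c d a e f (by
    simp only [List.nodup_cons, List.mem_cons, List.not_mem_nil, or_false, not_or,
      List.nodup_nil, and_true, not_false_eq_true] at hn ⊢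
    tauto)
  have h4 : (4 : ZMod 2) = 0 := by decide
  linear_combination e1 + e2 + e3 + e4 - h1 + h4

/-- **constant labels** with coboundary `N` and prescribed values on `{0, 1, 2}` -/
theorem gauge (h : RPN N) (h0 : N {0, 1, 2} = 1) : ∃ Ψ : Fin 6 → Fin 6 → ZMod 2,
    (∀ i j, Ψ i j = Ψ j i) ∧ Ψ 0 1 = 1 ∧ Ψ 0 2 = 0 ∧ Ψ 1 2 = 0 ∧
    ∀ i j k, i ≠ j → j ≠ k → i ≠ k → Ψ i j + Ψ j k + Ψ i k = N {i, j, k} := by
  let C : Fin 6 → Fin 6 → ZMod 2 := fun i j => if i = 3 ∨ j = 3 ∨ i = j then 0 else N {3, i, j}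
  have Cs : ∀ i j, C i j = C j i := by
    intro i j
    by_cases hc : i = 3 ∨ j = 3 ∨ i = j
    · have hc' : j = 3 ∨ i = 3 ∨ j = i := by tauto
      simp only [C, if_pos hc, if_pos hc']
    · have hc' : ¬ (j = 3 ∨ i = 3 ∨ j = i) := by tauto
      simp only [C, if_neg hc, if_neg hc']
      exact (rot N 3 i j).2.1
  have Cd : ∀ i j k, i ≠ j → j ≠ k → i ≠ k → C i j + C j k + C i k = N {i, j, k} := by
    intro i j k hij hjk hik
    by_cases hi : i = 3
    · subst hi
      simp only [C, true_or, if_true, hij.symm, hik.symm, hjk, or_self, if_false]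
      ring
    by_cases hj : j = 3
    · subst hj
      simp only [C, true_or, or_true, if_true, hij, hik, hjk.symm, or_self, if_false]
      rw [(rot N i 3 k).1]
      ring
    by_cases hk : k = 3
    · subst hk
      simp only [C, true_or, or_true, if_true, hij, hik, hjk, or_self, if_false]
      rw [(rot N i j 3).2.2.2.1]
      ring
    · obtain ⟨d, e, hn⟩ : ∃ d e, [3, i, j, k, d, e].Nodup := by
        clear Cs h0 h
        clear C
        revert i j k
        decide
      have h1 := h.two hn
      simp only [C, hi, hj, hk, hij, hjk, hik, or_self, if_false]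
      have key : ∀ x y z w : ZMod 2, x + y + z + w = 0 → x + z + y = w := by decide
      exact key _ _ _ _ h1
  have h012 := Cd 0 1 2 (by decide) (by decide) (by decide)
  rw [h0] at h012
  let s : Fin 6 → ZMod 2 := fun i => if i = 0 then C 0 2 else if i = 1 then C 1 2 else 0
  refine ⟨fun i j => C i j + s i + s j, fun i j => ?_, ?_, ?_, ?_, fun i j k hij hjk hik => ?_⟩
  · show C i j + s i + s j = C j i + s j + s i
    rw [Cs i j]; ring
  · show C 0 1 + s 0 + s 1 = 1
    have : s 0 = C 0 2 := rfl
    have h1 : s 1 = C 1 2 := rfl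
    rw [this, h1, ← h012]; ring
  · show C 0 2 + s 0 + s 2 = 0
    have : s 0 = C 0 2 := rfl
    have h1 : s 2 = 0 := rfl
    rw [this, h1]
    have key : ∀ x : ZMod 2, x + x + 0 = 0 := by decide
    exact key _
  · show C 1 2 + s 1 + s 2 = 0
    have : s 1 = C 1 2 := rfl
    have h1 : s 2 = 0 := rfl
    rw [this, h1]
    have key : ∀ x : ZMod 2, x + x + 0 = 0 := by decide
    exact key _
  · show C i j + s i + s j + (C j k + s j + s k) + (C i k + s i + s k) = N {i, j, k}
    rw [← Cd i j k hij hjk hik]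
    have key : ∀ x y z u v w : ZMod 2, x + u + v + (y + v + w) + (z + u + w) = x + y + z := by
      decide
    exact key _ _ _ _ _ _

/-- renaming -/
theorem image (h : RPN N) {σ : Fin 6 → Fin 6} (hσ : Function.Injective σ) :
    RPN (fun s => N (s.image σ)) := by
  have nd : ∀ L : List (Fin 6), L.Nodup → (L.map σ).Nodup := fun L hL => hL.map hσ
  refine ⟨fun i j a b c d hn => ?_, fun i j k a b c hn => ?_, fun i j a b c d hn => ?_⟩ <;>
    simp only [image_insert, image_singleton]
  · exact h.cyc _ _ _ _ _ _ (nd _ hn)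
  · exact h.one _ _ _ _ _ _ (nd _ hn)
  · exact h.deg _ _ _ _ _ _ (nd _ hn)

end RPN

/-- the standard plane: link `(1,2,3,4,5)` at `0` -/
def rp0 : Ch := fun s => if s ∈ ({{0,1,2},{0,2,3},{0,3,4},{0,4,5},{0,5,1},{2,4,5},{2,3,5},{1,3,5},
  {1,3,4},{1,2,4}} : Finset (Finset (Fin 6))) then 1 else 0

private lemma rp0_cyc : ∀ i j a b c d : Fin 6, [i, j, a, b, c, d].Nodup →
    rp0 {i, j, a} + rp0 {i, j, b} + rp0 {i, j, c} + rp0 {i, j, d} = 0 := by
  decide +kernel

private lemma rp0_one : ∀ i j k a b c : Fin 6, [i, j, k, a, b, c].Nodup →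
    rp0 {i, j, k} + rp0 {a, b, c} = 1 := by
  decide +kernel

private lemma rp0_deg : ∀ i j a b c d : Fin 6, [i, j, a, b, c, d].Nodup →
    ¬ (rp0 {i, j, b} = rp0 {i, j, a} ∧ rp0 {i, j, c} = rp0 {i, j, a} ∧
      rp0 {i, j, d} = rp0 {i, j, a}) := by
  decide +kernel

theorem rpn0 : RPN rp0 := ⟨rp0_cyc, rp0_one, rp0_deg⟩

/-- **the plane with the link `(Y, p, e, f, q)` at `X`** -/
theorem exists_RPN {X Y p e f q : Fin 6} (hn : [X, Y, p, e, f, q].Nodup) : ∃ N : Ch, RPN N ∧
    (N {X, Y, p} = 1 ∧ N {X, p, e} = 1 ∧ N {X, e, f} = 1 ∧ N {X, f, q} = 1 ∧ N {X, Y, q} = 1) ∧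
    (N {X, Y, e} = 0 ∧ N {X, Y, f} = 0 ∧ N {X, p, f} = 0 ∧ N {X, p, q} = 0 ∧ N {X, e, q} = 0) ∧
    (N {e, f, q} = 0 ∧ N {Y, f, q} = 0 ∧ N {Y, p, q} = 0 ∧ N {Y, p, e} = 0 ∧ N {p, e, f} = 0) ∧
    (N {p, f, q} = 1 ∧ N {p, e, q} = 1 ∧ N {Y, e, q} = 1 ∧ N {Y, e, f} = 1 ∧ N {Y, p, f} = 1) := by
  let g : Fin 6 → Fin 6 := ![X, Y, p, e, f, q]
  have hg : Function.Injective g := by
    simp only [List.nodup_cons, List.mem_cons, List.not_mem_nil, or_false, not_or,
      List.nodup_nil, and_true, not_false_eq_true] at hn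
    obtain ⟨⟨h01, h02, h03, h04, h05⟩, ⟨h12, h13, h14, h15⟩, ⟨h23, h24, h25⟩, ⟨h34, h35⟩, h45⟩ := hn
    intro i j hij
    fin_cases i <;> fin_cases j <;> first | rfl | (exfalso; simp [g] at hij; tauto)
  have hb : Function.Bijective g := Finite.injective_iff_bijective.1 hg
  let σ : Fin 6 ≃ Fin 6 := Equiv.ofBijective g hb
  have e0 : σ.symm X = 0 := σ.symm_apply_eq.2 rfl
  have e1 : σ.symm Y = 1 := σ.symm_apply_eq.2 rfl
  have e2 : σ.symm p = 2 := σ.symm_apply_eq.2 rfl
  have e3 : σ.symm e = 3 := σ.symm_apply_eq.2 rfl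
  have e4 : σ.symm f = 4 := σ.symm_apply_eq.2 rfl
  have e5 : σ.symm q = 5 := σ.symm_apply_eq.2 rfl
  refine ⟨_, rpn0.image σ.symm.injective, ?_⟩
  simp only [image_insert, image_singleton, e0, e1, e2, e3, e4, e5]
  decide

end Vale.Agent.P032.Six
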