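import Vale.Agent.P032.H780.CechV
import Vale.Agent.P032.H553.RPN

/-!
# P032, X4c: the end with constant labels

`DSt.const_end` : if one six-vertex projective plane `N` describes all states in the disc about `v`
(no face of a point of the disc without diagonal pair is in `N`, the two faces of a two-pair point
are both in `N` or both not), then the Čech end `DSt.cech_endV` gives a contradiction.
-/

open Set Filter Topology Metric

noncomputable section

namespace Vale.Agent.P032.Six

open Vale.Agent.P032.S5 Vale.Agent.P032.Carr Vale.Agent.P032.S5.Tab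

variable {U : Fin 6 → Set ℂ} {T : ℂ → Set (Fin 6)} {f : ℂ → Set (Fin 6)} {Z : Set ℂ} {c : ℂ}
  {R δ₀ : ℝ} {v : ℂ}

namespace DSt

variable (D : DSt U T Z f c R δ₀)
include D

/-- **The end with constant labels.** -/
theorem const_end (hvc : dist v c ≤ R - 1) (hv : T v = {3, 4, 5})
    (hap : ∀ z, dist z v = 1 → 4 ≤ (T z).ncard → ¬ T z \ f z ⊆ T v) (hring : RingOdd T Z f v)
    {N : Ch} (hN : RPN N) (h0 : N {0, 1, 2} = 1)
    (bas : ∀ x ∈ closedBall v 1, ∀ i j k, i ≠ j → j ≠ k → i ≠ k → i ∈ T x → j ∈ T x → k ∈ T x →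
      ¬ Dg T x i j → ¬ Dg T x j k → ¬ Dg T x i k → N {i, j, k} = 0)
    (four : ∀ x ∈ closedBall v 1, ∀ a b m n, DPt T x a b m n → N {a, b, m} = N {a, b, n})
    (epsV : ∀ x, dist x v = 1 → ∀ a b m n, DPt T x a b m n → f x = {m, n} → a ∉ T v → b ∉ T v →
      N {a, b, m} = 0) : False := by
  obtain ⟨Ψ, sym, h01, h02, h12, hd⟩ := hN.gauge h0
  have out : ∀ i j : Fin 6, i ≠ j → i ∉ T v → j ∉ T v →
      Ψ i j = if ({i, j} : Finset (Fin 6)) = {0, 1} then 1 else 0 := by
    intro i j hij hi hj
    rw [hv] at hi hj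
    have g : ∀ i : Fin 6, i ∉ ({3, 4, 5} : Set (Fin 6)) → i = 0 ∨ i = 1 ∨ i = 2 := by
      intro i hi
      fin_cases i <;> simp at hi ⊢
    have s10 := sym 1 0
    have s20 := sym 2 0
    have s21 := sym 2 1
    rw [h01] at s10
    rw [h02] at s20
    rw [h12] at s21
    rcases g i hi with rfl | rfl | rfl <;> rcases g j hj with rfl | rfl | rfl
    · exact absurd rfl hij
    · rw [h01, if_pos (by decide)]
    · rw [h02, if_neg (by decide)]
    · rw [s10, if_pos (by decide)]
    · exact absurd rfl hij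
    · rw [h12, if_neg (by decide)]
    · rw [s20, if_neg (by decide)]
    · rw [s21, if_neg (by decide)]
    · exact absurd rfl hij
  refine D.cech_endV hvc hv hap hring (fun i j _ => Ψ i j) (fun i j _ => sym i j)
    (fun i j _ x _ _ _ _ => Eventually.of_forall fun _ _ _ _ => rfl) ?_ ?_ ?_ ?_
  · intro x hx i j k hij hjk hik hi hj hk h1 h2 h3
    show Ψ i j + Ψ j k + Ψ i k = 0
    rw [hd i j k hij hjk hik]
    exact bas x hx i j k hij hjk hik hi hj hk h1 h2 h3
  · intro x hx a b m n hD
    show Ψ a m + Ψ m b + Ψ b n + Ψ n a = 0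
    have h1 := hd a b m hD.ab hD.bc hD.ac
    have h2 := hd a b n hD.ab hD.bd hD.ad
    have h3 := four x hx a b m n hD
    rw [sym m b, sym n a]
    have h4 : (2 : ZMod 2) = 0 := by decide
    linear_combination h1 - h2 + h3 + (Ψ b n + Ψ a n) * h4
  · intro x hx i j hij _ _ hi hj _
    exact out i j hij hi hj
  · intro x hx a b m n hD hf ha hb
    show Ψ a m + Ψ m b = _
    have h1 := hd a b m hD.ab hD.bc hD.ac
    rw [epsV x hx a b m n hD hf ha hb] at h1
    rw [← out a b hD.ab ha hb, sym m b]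
    have h4 : (2 : ZMod 2) = 0 := by decide
    linear_combination h1 - Ψ a b * h4

end DSt

end Vale.Agent.P032.Six
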