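import Vale.Agent.P032.H553.FullW
import Vale.Agent.P032.H538.NBad
import Vale.Agent.P032.H780.TipF

/-!
# P032, TipI: the record at the full times

`fullW553 : FullW780 U T f` from the world of STAY chains.
-/

open Set Filter Topology Metric

noncomputable section

namespace Vale.Agent.P032.Six

open Vale.Agent.P032.S5 Vale.Agent.P032.S5.Tab Vale.Agent.P032.Carr Vale.Agent.P032.H538
  Vale.Agent.P032.H961
open Vale.Agent.P032.H180 (HexZ Qt Qt_of_ne Qt_of_eq)
open Vale.Agent.P032.S5.H180 (Qx rx Bs Qx_univ usc_pt dist_pt_succ)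

variable {U : Fin 6 → Set ℂ} {T : ℂ → Set (Fin 6)} {f : ℂ → Set (Fin 6)} {Z : Set ℂ} {c : ℂ}
  {R δ₀ : ℝ} {x V y : ℂ} {col : Fin 3 → Fin 6} {t s : ℝ}

theorem not_swV553 {A : Set (Fin 6)} (hA : Six.Harm T V A) : ¬ SwV180 T f x V y := by
  rintro ⟨a, b, m, n, hD, -⟩
  exact not_harm_of_dpt hA hD

/-- **The record at the full times** -/
theorem fullW553 (h : DF U T) (hN : NoComp T) (hw : QIW T NoI) (G : GaugeI758 T NoI f)
    (SA : ∀ V l name, ChI nxR802 T NoI V l name → ∀ j, l j = 2) : FullW780 U T f := by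
  intro Z c R δ₀ D x hx h3 hap
  have B : BW553 U T Z f c R δ₀ x := ⟨D, StW2.of hw G SA, hN, hx, h3, hap⟩
  -- the rule at all times
  have inc : ∀ col : Fin 3 → Fin 6, (∀ i, i ∉ T x ↔ ∃ l, i = col l) →
      ∀ t s : ℝ, dist (H180.pt x t) (H180.pt x s) = 1 →
      Qt (Qx T x col) (rx T f (T x) x col) t ⊆ Qt (Qx T x col) (rx T f (T x) x col) s →
      SwV180 T f x (H180.pt x t) (H180.pt x s) ∨ SwV180 T f x (H180.pt x s) (H180.pt x t) := by
    intro col hcol t s hts hsub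
    by_cases h1 : Qx T x col t = univ
    · exact B.incF hcol hts (Or.inl h1) hsub
    by_cases h2 : Qx T x col s = univ
    · exact B.incF hcol hts (Or.inr h2) hsub
    rw [Qt_of_ne h1, Qt_of_ne h2] at hsub
    refine viol180 D hw G SA h3 hap (H180.dist_pt x t) (H180.dist_pt x s) hts
      (fun h => h1 ((Qx_univ hcol).2 h)) (fun h => h2 ((Qx_univ hcol).2 h)) ?_
    rintro i ⟨hi, hix⟩
    obtain ⟨l, rfl⟩ := (hcol i).1 hix
    exact hsub hi
  refine ⟨B.rc, fun col hcol hinj => B.hexW hcol hinj,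
    fun col hcol _ t s hts hu hsub => B.incF hcol hts hu hsub, fun col hcol hinj t h0 h1 => ?_⟩
  have d0 := Vale.Agent.P032.H180.dist_pt x t
  have d1 := Vale.Agent.P032.H180.dist_pt x (t + 1)
  have d01 := dist_pt_succ x t
  obtain ⟨hA, hA', -⟩ := B.cc d0 ((Qx_univ hcol).1 h0) d1 (by rw [dist_comm]; exact d01)
    ((Qx_univ hcol).1 h1)
  have near : ∀ {u : ℝ}, Six.Harm T (H180.pt x u) (f (H180.pt x u)) →
      ∀ᶠ s in 𝓝 u, ∀ V, ¬ SwV180 T f x (H180.pt x s) V := by
    intro u hu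
    have c1 : Tendsto (Vale.Agent.P032.H180.pt x) (𝓝 u) (𝓝 (Vale.Agent.P032.H180.pt x u)) :=
      (Vale.Agent.P032.H180.continuous_pt x).continuousAt
    filter_upwards [c1.eventually (h.ev_harm180 hu)] with s hs V hV
    obtain ⟨a, b, m, n, hD, -⟩ := id hV
    obtain ⟨A', hA'⟩ := hs (card4 hD).ge
    exact not_swV553 hA' hV
  have c2 : Tendsto (fun s : ℝ => s + 1) (𝓝 t) (𝓝 (t + 1)) :=
    (continuous_add_const 1).continuousAt
  refine D.nbad538 B.rc hcol hinj h0 h1 ⟨_, hA⟩ ⟨_, hA'⟩ ?_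
  filter_upwards [near hA, c2.eventually (near hA')] with s k1 k2
  refine ⟨fun hsub => ?_, fun hsub => ?_⟩
  · rcases inc col hcol s (s + 1) (dist_pt_succ x s) hsub with h5 | h5
    · exact k1 _ h5
    · exact k2 _ h5
  · rcases inc col hcol (s + 1) s (by rw [dist_comm]; exact dist_pt_succ x s) hsub with h5 | h5
    · exact k2 _ h5
    · exact k1 _ h5

end Vale.Agent.P032.Six
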