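import Vale.Agent.P032.H492.Branch

/-!
# P032: the half-plane rule, and two mixed points of a unit triangle

* `hp_in553`, `hp_out553` : the half-plane rule. A germ of the colour `x` at `V` which runs inside
  (outside) `S(y)` keeps the colour `x` near `y` in the closed disc (off the open disc) around `V`.
* `hp_both553` : no two germs of a colour of `y` on different sides of `S(y)`.
* `hp_pair553` : `T r = {a, b}`: the germs of `a` and `b` are on different sides of `S(r)`.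
* `mix553` : `V` a two-pair point with the pairs `ab | cd`, `V, y1, y2` a unit triangle, `S(y1)` shows
  `b`, `d` at `V`, `S(y2)` shows `a`, `c`; `c ∈ T y1`, `d ∈ T y2`: impossible.
-/

open Set Filter Topology Metric

noncomputable section

namespace Vale.Agent.P032.Six

open Vale.Agent.P032.S5.H767 Vale.Agent.P032.H460 Vale.Agent.P032.H484 Vale.Agent.P032.H492

variable {U : Fin 6 → Set ℂ} {T : ℂ → Set (Fin 6)} {V y y1 y2 r : ℂ} {a b c d x : Fin 6}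

theorem germ553 {P : ℝ → Prop} (h : ∀ᶠ t : ℝ in 𝓝[>] 0, P t) : ∃ t0 > 0, ∀ t ∈ Ioc (0 : ℝ) t0, P t := by
  obtain ⟨u, hu, h1⟩ := mem_nhdsGT_iff_exists_Ioc_subset.1 h
  exact ⟨u, hu, fun t ht => h1 ht⟩

/-- **the half-plane rule, inside** -/
theorem hp_in553 (h : Irr U T) {g : ℝ → ℂ} (hg : Continuous g) (g0 : g 0 = V)
    (hin : ∀ᶠ t : ℝ in 𝓝[>] 0, dist (g t) y < 1) (hx : ∀ᶠ t : ℝ in 𝓝[>] 0, x ∈ T (g t)) :
    ∀ᶠ y' in 𝓝 y, x ∈ T y' → dist y' V ≤ 1 := by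
  obtain ⟨t0, ht0, hP⟩ := germ553 (hin.and hx)
  have h1 : ∀ᶠ y' in 𝓝 y, dist (g t0) y' < 1 := by
    have h2 : Continuous fun y' : ℂ => dist (g t0) y' := by fun_prop
    exact h2.continuousAt.eventually (Iio_mem_nhds (hP t0 ⟨ht0, le_rfl⟩).1)
  filter_upwards [h1] with y' h2 h3
  by_contra hcon
  push Not at hcon
  have h4 : y' ∈ closure (U x) := h.sub _ h3
  obtain ⟨z, ⟨hz1, hz2⟩, hzU⟩ := mem_closure_iff_nhds.1 h4
    ({z | dist (g t0) z < 1} ∩ {z | 1 < dist z V}) (by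
      refine Filter.inter_mem ?_ ?_
      · have h5 : Continuous fun z : ℂ => dist (g t0) z := by fun_prop
        exact h5.continuousAt.eventually (Iio_mem_nhds h2)
      · have h5 : Continuous fun z : ℂ => dist z V := by fun_prop
        exact h5.continuousAt.eventually (Ioi_mem_nhds hcon))
  have hz1 : dist (g t0) z < 1 := hz1
  have hz2 : 1 < dist z V := hz2
  have hc : ContinuousOn (fun t : ℝ => dist (g t) z) (Icc 0 t0) := by
    have h5 : Continuous fun t : ℝ => dist (g t) z := by fun_prop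
    exact h5.continuousOn
  obtain ⟨t, ht, ht1⟩ := intermediate_value_Icc' ht0.le hc
    (show (1 : ℝ) ∈ Icc (dist (g t0) z) (dist (g 0) z) from
      ⟨hz1.le, by rw [g0, dist_comm]; exact hz2.le⟩)
  have ht1 : dist (g t) z = 1 := ht1
  have ht0' : t ≠ 0 := by
    rintro rfl
    rw [g0, dist_comm] at ht1
    linarith
  have h6 := (hP t ⟨lt_of_le_of_ne ht.1 (Ne.symm ht0'), ht.2⟩).2
  exact h.mx.notMem (h.sub _ h6) (by rw [dist_comm]; exact ht1) hzU

/-- **the half-plane rule, outside** -/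
theorem hp_out553 (h : Irr U T) {g : ℝ → ℂ} (hg : Continuous g) (g0 : g 0 = V)
    (hin : ∀ᶠ t : ℝ in 𝓝[>] 0, 1 < dist (g t) y) (hx : ∀ᶠ t : ℝ in 𝓝[>] 0, x ∈ T (g t)) :
    ∀ᶠ y' in 𝓝 y, x ∈ T y' → 1 ≤ dist y' V := by
  obtain ⟨t0, ht0, hP⟩ := germ553 (hin.and hx)
  have h1 : ∀ᶠ y' in 𝓝 y, 1 < dist (g t0) y' := by
    have h2 : Continuous fun y' : ℂ => dist (g t0) y' := by fun_prop
    exact h2.continuousAt.eventually (Ioi_mem_nhds (hP t0 ⟨ht0, le_rfl⟩).1)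
  filter_upwards [h1] with y' h2 h3
  by_contra hcon
  push Not at hcon
  have h4 : y' ∈ closure (U x) := h.sub _ h3
  obtain ⟨z, ⟨hz1, hz2⟩, hzU⟩ := mem_closure_iff_nhds.1 h4
    ({z | 1 < dist (g t0) z} ∩ {z | dist z V < 1}) (by
      refine Filter.inter_mem ?_ ?_
      · have h5 : Continuous fun z : ℂ => dist (g t0) z := by fun_prop
        exact h5.continuousAt.eventually (Ioi_mem_nhds h2)
      · have h5 : Continuous fun z : ℂ => dist z V := by fun_prop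
        exact h5.continuousAt.eventually (Iio_mem_nhds hcon))
  have hz1 : 1 < dist (g t0) z := hz1
  have hz2 : dist z V < 1 := hz2
  have hc : ContinuousOn (fun t : ℝ => dist (g t) z) (Icc 0 t0) := by
    have h5 : Continuous fun t : ℝ => dist (g t) z := by fun_prop
    exact h5.continuousOn
  obtain ⟨t, ht, ht1⟩ := intermediate_value_Icc ht0.le hc
    (show (1 : ℝ) ∈ Icc (dist (g 0) z) (dist (g t0) z) from
      ⟨by rw [g0, dist_comm]; exact hz2.le, hz1.le⟩)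
  have ht1 : dist (g t) z = 1 := ht1
  have ht0' : t ≠ 0 := by
    rintro rfl
    rw [g0, dist_comm] at ht1
    linarith
  have h6 := (hP t ⟨lt_of_le_of_ne ht.1 (Ne.symm ht0'), ht.2⟩).2
  exact h.mx.notMem (h.sub _ h6) (by rw [dist_comm]; exact ht1) hzU

/-- radial points -/
theorem radial553 {p V : ℂ} (hp : dist p V = 1) (ε : ℝ) (hε : -1 < ε) :
    dist (p + ε * (p - V)) V = 1 + ε := by
  have h1 : p + ε * (p - V) - V = ((1 + ε : ℝ) : ℂ) * (p - V) := by push_cast; ring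
  rw [dist_eq_norm, h1, norm_mul, ← dist_eq_norm, hp, Complex.norm_real, Real.norm_eq_abs,
    abs_of_pos (by linarith), mul_one]

theorem radial_tendsto553 (p V : ℂ) (s : ℝ) :
    Tendsto (fun ε : ℝ => p + ((s * ε : ℝ) : ℂ) * (p - V)) (𝓝[>] 0) (𝓝 p) := by
  have h1 : Continuous fun ε : ℝ => p + ((s * ε : ℝ) : ℂ) * (p - V) := by fun_prop
  have h2 := h1.tendsto 0
  simp only [mul_zero, Complex.ofReal_zero, zero_mul, add_zero] at h2
  exact h2.mono_left nhdsWithin_le_nhds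

theorem not_all_le553 {p V : ℂ} (hp : dist p V = 1) (h : ∀ᶠ q in 𝓝 p, dist q V ≤ 1) : False := by
  obtain ⟨ε, h1, h2⟩ := (((radial_tendsto553 p V 1).eventually h).and self_mem_nhdsWithin).exists
  have h2 : 0 < ε := h2
  rw [one_mul, radial553 hp ε (by linarith)] at h1
  linarith

theorem not_all_ge553 {p V : ℂ} (hp : dist p V = 1) (h : ∀ᶠ q in 𝓝 p, 1 ≤ dist q V) : False := by
  obtain ⟨ε, ⟨h1, h2⟩, h3⟩ := ((((radial_tendsto553 p V (-1)).eventually h).and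
    self_mem_nhdsWithin).and (mem_nhdsWithin_of_mem_nhds (Iio_mem_nhds one_pos))).exists
  have h2 : 0 < ε := h2
  have h3 : ε < 1 := h3
  rw [radial553 hp (-1 * ε) (by linarith)] at h1
  linarith

/-- **no two germs of a colour of `y` on different sides of `S(y)`** -/
theorem hp_both553 (h : Irr U T) (hxy : x ∈ T y) (h1 : ∀ᶠ y' in 𝓝 y, x ∈ T y' → dist y' V ≤ 1)
    (h2 : ∀ᶠ y' in 𝓝 y, x ∈ T y' → 1 ≤ dist y' V) : False := by
  obtain ⟨p, hp, h3⟩ := ((h.pure y x hxy).and_eventually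
    (h1.eventually_nhds.and h2.eventually_nhds)).exists
  have hpU : p ∈ U x := h.mem_of_single (by rw [hp])
  have hev : ∀ᶠ q in 𝓝 p, x ∈ T q := by
    filter_upwards [(h.mx.isOpen x).mem_nhds hpU, h.nhd p] with q hq1 hq2
    have h5 := h.ne q
    obtain ⟨i, hi⟩ := h5
    have h6 := hq2 hi
    rw [hp, mem_singleton_iff] at h6
    exact h6 ▸ hi
  have h4 : ∀ᶠ q in 𝓝 p, dist q V ≤ 1 := by
    filter_upwards [hev, h3.1] with q k1 k2 using k2 k1
  have h5 : ∀ᶠ q in 𝓝 p, 1 ≤ dist q V := by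
    filter_upwards [hev, h3.2] with q k1 k2 using k2 k1
  have h6 : dist p V = 1 := le_antisymm h4.self_of_nhds h5.self_of_nhds
  exact not_all_le553 h6 h4

/-- the curve `wc` -/
theorem cont_wc553 (y V : ℂ) (σ : ℝ) : Continuous fun θ : ℝ => wc y V (σ * θ) := by
  unfold wc
  exact continuous_const.add (continuous_const.mul (continuous_cis.comp (by fun_prop)))

theorem wc_zero553 (y V : ℂ) (σ : ℝ) : wc y V (σ * 0) = V := by
  unfold wc
  rw [mul_zero, cis]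
  simp

/-- a germ of `S(y)` inside `S(p)` -/
theorem wc_hp_in553 (h : Irr U T) {p : ℂ} (hVy : dist V y = 1) (hp : dist p V = 1) {σ : ℝ}
    (hσ : σ = 1 ∨ σ = -1) (hc : σ * cr (y - V) (p - V) < 0)
    (hx : ∀ᶠ t : ℝ in 𝓝[>] 0, x ∈ T (wc y V (σ * t))) :
    ∀ᶠ y' in 𝓝 p, x ∈ T y' → dist y' V ≤ 1 :=
  hp_in553 h (cont_wc553 y V σ) (wc_zero553 y V σ) (wc_in hVy hp hσ hc) hx

/-- a germ of `S(y)` outside `S(p)` -/
theorem wc_hp_out553 (h : Irr U T) {p : ℂ} (hVy : dist V y = 1) (hp : dist p V = 1) {σ : ℝ}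
    (hσ : σ = 1 ∨ σ = -1) (hc : 0 < σ * cr (y - V) (p - V))
    (hx : ∀ᶠ t : ℝ in 𝓝[>] 0, x ∈ T (wc y V (σ * t))) :
    ∀ᶠ y' in 𝓝 p, x ∈ T y' → 1 ≤ dist y' V :=
  hp_out553 h (cont_wc553 y V σ) (wc_zero553 y V σ) (wc_out hVy hp hσ hc) hx

/-- **two germs of a colour of `p`** : same side of `S(p)` -/
theorem same_side553 (h : Irr U T) {p : ℂ} (hp : dist p V = 1) (hxp : x ∈ T p)
    (h1 : dist V y1 = 1) (h2 : dist V y2 = 1) {σ τ : ℝ} (hσ : σ = 1 ∨ σ = -1)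
    (hτ : τ = 1 ∨ τ = -1) (g1 : ∀ᶠ t : ℝ in 𝓝[>] 0, x ∈ T (wc y1 V (σ * t)))
    (g2 : ∀ᶠ t : ℝ in 𝓝[>] 0, x ∈ T (wc y2 V (τ * t)))
    (n1 : cr (y1 - V) (p - V) ≠ 0) (n2 : cr (y2 - V) (p - V) ≠ 0) :
    0 < (σ * cr (y1 - V) (p - V)) * (τ * cr (y2 - V) (p - V)) := by
  have s0 : σ ≠ 0 := by rcases hσ with rfl | rfl <;> norm_num
  have t0 : τ ≠ 0 := by rcases hτ with rfl | rfl <;> norm_num
  rcases lt_or_gt_of_ne (mul_ne_zero s0 n1) with k1 | k1 <;>
    rcases lt_or_gt_of_ne (mul_ne_zero t0 n2) with k2 | k2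
  · exact mul_pos_of_neg_of_neg k1 k2
  · exact (hp_both553 h hxp (wc_hp_in553 h h1 hp hσ k1 g1) (wc_hp_out553 h h2 hp hτ k2 g2)).elim
  · exact (hp_both553 h hxp (wc_hp_in553 h h2 hp hτ k2 g2) (wc_hp_out553 h h1 hp hσ k1 g1)).elim
  · exact mul_pos k1 k2

/-- **the germs of the two colours of a point `r` with `T r = {a, b}`** : different sides of `S(r)` -/
theorem hp_pair553 (h : Irr U T) (hr : dist r V = 1) (hT : T r = {a, b})
    (h1 : dist V y1 = 1) (h2 : dist V y2 = 1) {σ τ : ℝ} (hσ : σ = 1 ∨ σ = -1)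
    (hτ : τ = 1 ∨ τ = -1) (g1 : ∀ᶠ t : ℝ in 𝓝[>] 0, a ∈ T (wc y1 V (σ * t)))
    (g2 : ∀ᶠ t : ℝ in 𝓝[>] 0, b ∈ T (wc y2 V (τ * t)))
    (n1 : cr (y1 - V) (r - V) ≠ 0) (n2 : cr (y2 - V) (r - V) ≠ 0) :
    (σ * cr (y1 - V) (r - V)) * (τ * cr (y2 - V) (r - V)) < 0 := by
  have s0 : σ ≠ 0 := by rcases hσ with rfl | rfl <;> norm_num
  have t0 : τ ≠ 0 := by rcases hτ with rfl | rfl <;> norm_num
  have hnhd := h.nhd r
  rw [hT] at hnhd
  rcases lt_or_gt_of_ne (mul_ne_zero s0 n1) with k1 | k1 <;>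
    rcases lt_or_gt_of_ne (mul_ne_zero t0 n2) with k2 | k2
  · exfalso
    refine not_all_le553 hr ?_
    filter_upwards [hnhd, wc_hp_in553 h h1 hr hσ k1 g1, wc_hp_in553 h h2 hr hτ k2 g2]
      with q e1 e2 e3
    obtain ⟨i, hi⟩ := h.ne q
    rcases e1 hi with rfl | h3
    · exact e2 hi
    · rw [mem_singleton_iff] at h3; subst h3; exact e3 hi
  · exact mul_neg_of_neg_of_pos k1 k2
  · exact mul_neg_of_pos_of_neg k1 k2
  · exfalso
    refine not_all_ge553 hr ?_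
    filter_upwards [hnhd, wc_hp_out553 h h1 hr hσ k1 g1, wc_hp_out553 h h2 hr hτ k2 g2]
      with q e1 e2 e3
    obtain ⟨i, hi⟩ := h.ne q
    rcases e1 hi with rfl | h3
    · exact e2 hi
    · rw [mem_singleton_iff] at h3; subst h3; exact e3 hi

/-- **the germs of `S(r)` at `V`**, `T r = {a, b}` in an exact arc: `c` on one side, `d` on the other -/
theorem germ_arc553 (h : Irr U T) (hV : DPt T V a b c d) (hr : Arc T V r {a, b})
    (hy : dist y V = 1) (n : cr (r - V) (y - V) ≠ 0) : ∃ σ : ℝ, (σ = 1 ∨ σ = -1) ∧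
      (∀ᶠ t : ℝ in 𝓝[>] 0, c ∈ T (wc r V (σ * t))) ∧
      ∀ᶠ t : ℝ in 𝓝[>] 0, d ∈ T (wc r V (-σ * t)) := by
  have hVr : dist V r = 1 := by rw [dist_comm]; exact hr.1
  obtain ⟨σ, hσ, h1, h2⟩ := h.opp492 hV hVr
  have key : ∀ τ : ℝ, (τ = 1 ∨ τ = -1) → ∀ᶠ t : ℝ in 𝓝[>] 0,
      T (wc r V (τ * t)) ⊆ T V ∧ a ∉ T (wc r V (τ * t)) ∧ b ∉ T (wc r V (τ * t)) := by
    intro τ hτ
    have hτ0 : τ ≠ 0 := by rcases hτ with rfl | rfl <;> norm_num
    have hne : ∀ᶠ t : ℝ in 𝓝[>] 0, wc r V (τ * t) ≠ V := by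
      have hVy : dist V y = 1 := by rw [dist_comm]; exact hy
      rcases lt_or_gt_of_ne (mul_ne_zero hτ0 n) with k | k
      · filter_upwards [wc_in hVr hy hτ k] with t e1 e2
        rw [e2] at e1; linarith
      · filter_upwards [wc_out hVr hy hτ k] with t e1 e2
        rw [e2] at e1; linarith
    have hne2 : ∀ᶠ t : ℝ in 𝓝[>] 0, wc r V (τ * t) + V ≠ 2 * r := by
      have e1 : V + V ≠ 2 * r := by
        intro e1
        have e2 : V = r := by linear_combination e1 / 2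
        rw [e2, dist_self] at hVr
        norm_num at hVr
      exact (((wc_tendsto r V τ).add_const V)).eventually (isOpen_ne.mem_nhds e1)
    filter_upwards [(wc_tendsto r V τ).eventually (h.nhd V), hne, hne2] with t e1 e2 e3
    have hd : dist r (wc r V (τ * t)) = 1 := by rw [dist_comm]; exact dist_wc hVr _
    refine ⟨e1, fun e4 => ?_, fun e4 => ?_⟩
    · rcases h.mx.partner_line hr.1 (hr.2.mono fun q hq => h.sub q (by rw [hq]; simp)) hd (h.sub _ e4) with e5 | e5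
      · exact e2 e5
      · exact e3 e5
    · rcases h.mx.partner_line hr.1 (hr.2.mono fun q hq => h.sub q (by rw [hq]; simp)) hd (h.sub _ e4) with e5 | e5
      · exact e2 e5
      · exact e3 e5
  have hσ' : -σ = 1 ∨ -σ = -1 := by rcases hσ with rfl | rfl <;> norm_num
  refine ⟨-σ, hσ', ?_, ?_⟩
  · filter_upwards [key (-σ) hσ', h2] with t e1 e2
    obtain ⟨i, hi⟩ := h.ne (wc r V (-σ * t))
    have e3 := e1.1 hi
    rw [hV.pal] at e3
    rcases e3 with rfl | rfl | rfl | e3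
    · exact absurd hi e1.2.1
    · exact absurd hi e1.2.2
    · exact hi
    · rw [mem_singleton_iff] at e3; subst e3
      exact absurd (h.sub _ hi) e2
  · rw [neg_neg]
    filter_upwards [key σ hσ, h1] with t e1 e2
    obtain ⟨i, hi⟩ := h.ne (wc r V (σ * t))
    have e3 := e1.1 hi
    rw [hV.pal] at e3
    rcases e3 with rfl | rfl | rfl | e3
    · exact absurd hi e1.2.1
    · exact absurd hi e1.2.2
    · exact absurd (h.sub _ hi) e2
    · rw [mem_singleton_iff] at e3; subst e3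
      exact hi

/-- **two mixed points of a unit triangle** -/
theorem mix553 (h : Irr U T) (hV : DPt T V a b c d) (h1 : dist y1 V = 1) (h2 : dist y2 V = 1)
    (h12 : dist y1 y2 = 1) (c1 : c ∈ T y1) (d2 : d ∈ T y2)
    (g1 : ∃ σ : ℝ, (σ = 1 ∨ σ = -1) ∧ (∀ᶠ t : ℝ in 𝓝[>] 0, b ∈ T (wc y1 V (σ * t))) ∧
      ∀ᶠ t : ℝ in 𝓝[>] 0, d ∈ T (wc y1 V (-σ * t)))
    (g2 : ∃ σ : ℝ, (σ = 1 ∨ σ = -1) ∧ (∀ᶠ t : ℝ in 𝓝[>] 0, a ∈ T (wc y2 V (σ * t))) ∧
      ∀ᶠ t : ℝ in 𝓝[>] 0, c ∈ T (wc y2 V (-σ * t))) : False := by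
  obtain ⟨s1, hs1, gb, gd⟩ := g1
  obtain ⟨s2, hs2, ga, gc⟩ := g2
  obtain ⟨p, hp⟩ := hV.arc1
  obtain ⟨r, hr, ⟨r1, r1'⟩, r2, r2'⟩ := arc_generic (y := y1) (y' := y2) hp
  have hV1 : dist V y1 = 1 := by rw [dist_comm]; exact h1
  have hV2 : dist V y2 = 1 := by rw [dist_comm]; exact h2
  have hVr : dist V r = 1 := by rw [dist_comm]; exact hr.1
  have n1 : cr (r - V) (y1 - V) ≠ 0 := H484.cr_ne hr.1 h1 r1 r1'
  have n2 : cr (r - V) (y2 - V) ≠ 0 := H484.cr_ne hr.1 h2 r2 r2'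
  have n12 : cr (y1 - V) (y2 - V) ≠ 0 := by
    refine H484.cr_ne h1 h2 ?_ ?_
    · rintro rfl; rw [dist_self] at h12; norm_num at h12
    · intro h3
      have h4 : y1 - y2 = 2 * (y1 - V) := by linear_combination -h3
      rw [dist_eq_norm, h4, norm_mul, ← dist_eq_norm, h1] at h12
      norm_num at h12
  have hanti : ∀ u v : ℂ, cr u v = - cr v u := fun u v => by unfold cr; ring
  obtain ⟨s3, hs3, gc3, gd3⟩ := germ_arc553 h hV hr h1 n1
  have hm : ∀ s : ℝ, (s = 1 ∨ s = -1) → (-s = 1 ∨ -s = -1) := by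
    rintro s (rfl | rfl) <;> norm_num
  have k1 := same_side553 h h1 c1 hV2 hVr (hm s2 hs2) hs3 gc gc3
    (by rw [hanti]; exact neg_ne_zero.2 n12) n1
  have k2 := same_side553 h h2 d2 hV1 hVr (hm s1 hs1) (hm s3 hs3) gd gd3 n12 n2
  have k3 := hp_pair553 h hr.1 hr.mem hV2 hV1 hs2 hs1 ga gb
    (by rw [hanti]; exact neg_ne_zero.2 n2) (by rw [hanti]; exact neg_ne_zero.2 n1)
  rw [hanti (y2 - V) (y1 - V)] at k1
  rw [hanti (y2 - V) (r - V), hanti (y1 - V) (r - V)] at k3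
  set w := cr (y1 - V) (y2 - V)
  set R1 := cr (r - V) (y1 - V)
  set R2 := cr (r - V) (y2 - V)
  have e1 : 0 < s2 * s3 * (w * R1) := by linarith [k1, show (-s2 * -w) * (s3 * R1) = s2 * s3 * (w * R1) by ring]
  have e2 : 0 < s1 * s3 * (w * R2) := by linarith [k2, show (-s1 * w) * (-s3 * R2) = s1 * s3 * (w * R2) by ring]
  have e3 : s1 * s2 * (R1 * R2) < 0 := by linarith [k3, show (s2 * -R2) * (s1 * -R1) = s1 * s2 * (R1 * R2) by ring]
  have e4 := mul_pos e1 e2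
  have e5 : s3 ^ 2 = 1 := by rcases hs3 with h | h <;> rw [h] <;> norm_num
  have e6 : s2 * s3 * (w * R1) * (s1 * s3 * (w * R2)) = s3 ^ 2 * (w ^ 2 * (s1 * s2 * (R1 * R2))) := by ring
  rw [e6, e5, one_mul] at e4
  nlinarith [sq_nonneg w, mul_nonneg (sq_nonneg w) (neg_nonneg.2 e3.le)]

end Vale.Agent.P032.Six
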